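import Vale.Agent.P210.R2.H401.StepE

open Set Metric
open Vale.Agent.P210.R2.H53 (HCge)

noncomputable section

namespace Vale.Agent.P210.R2.H401

theorem base {n : ℕ} {C : Sp → Prop} (I : Inp n C) :
    ∃ (b : ℕ) (η : ℝ), 0 < η ∧ ∀ S, C S → ¬ St n (n - 1) b η S := by
  obtain ⟨η, hη, L, hL, h⟩ := I.fin
  obtain ⟨b, hb⟩ := exists_two_pow L
  refine ⟨b, η, hη, fun S hS => ?_⟩
  rintro ⟨y, t, A, p, hbt, hK, hA, hHC, hPL, hGN⟩
  have ht : 0 < t := lt_of_lt_of_le (by positivity) hbt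
  refine h S hS y (2 * t) p (by linarith) hK hPL fun i j hij => ?_
  have e : 4 * (2 * t) = 8 * t := by ring
  rw [e]
  rcases lt_or_gt_of_ne hij with h1 | h1
  · exact hGN i j h1
  · obtain ⟨σ, h2, h3⟩ := hGN j i h1
    exact ⟨σ, h2, (I.ax S hS).gs _ _ _ _ _ _ h3⟩

theorem down (hS : Stmt.STEP) {n : ℕ} {C : Sp → Prop} (hn : 2 ≤ n) (I : Inp n C) (d : ℕ) :
    d ≤ n - 1 → ∃ (b : ℕ) (η : ℝ), 0 < η ∧ ∀ S, C S → ¬ St n (n - 1 - d) b η S := by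
  induction d with
  | zero => intro _; simpa using base I
  | succ d ih =>
    intro hd
    have h := ih (by omega)
    refine hS n C hn I (n - 1 - (d + 1)) (by omega) ?_
    rwa [show n - 1 - (d + 1) + 1 = n - 1 - d by omega]

theorem abs_of (hS : Stmt.STEP) (hC : Stmt.COVER) (hD : Stmt.DENS) (hL : Stmt.LIM) :
    Stmt.ABS := by
  intro n C hn I ε hε
  obtain ⟨b₀, η, hη, h0⟩ := down hS hn I (n - 1) le_rfl
  rw [Nat.sub_self] at h0
  obtain ⟨N, hN⟩ := dens0 hD hL hC hn (b := b₀ + 1) (by omega) 1 hε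
  refine ⟨2 ^ (N + (b₀ + 1)), by positivity, min η 1 / (2 * 2 ^ (N + (b₀ + 1))) ^ 2,
    by positivity, fun S hS hK y hHC => ?_⟩
  rw [le_div_iff₀ (by positivity)] at hK
  have hAx := I.ax S hS
  have hKp := hAx.Kpos
  obtain ⟨k, hk, w, hw, h⟩ := hN S hAx (2 ^ (N + (b₀ + 1))) 1
    (closedBall y (2 ^ (N + (b₀ + 1)))) (by positivity) (hK.trans (min_le_right _ _)) one_pos
    (by rw [div_self (by positivity)]) ⟨{y}, by simp, by simp⟩ hHC
  have hk2 : (2 : ℝ) ^ k ≤ 2 ^ N := pow_le_pow_right₀ (by norm_num) hk.le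
  have hR : (0 : ℝ) < 2 ^ (N + (b₀ + 1)) := by positivity
  have ht1 : (2 : ℝ) ^ (N + (b₀ + 1)) / 2 ^ k ≤ 2 ^ (N + (b₀ + 1)) :=
    div_le_self hR.le (one_le_pow₀ (by norm_num))
  refine h0 S hS (st_mono ⟨w, 2 ^ (N + (b₀ + 1)) / 2 ^ k, _, Fin.elim0, ?_, ?_,
    inter_subset_right, h, fun i => i.elim0, fun i => i.elim0⟩)
  · rw [le_div_iff₀ (by positivity)]
    calc (2 : ℝ) ^ (b₀ + 1) * 2 ^ k ≤ 2 ^ (b₀ + 1) * 2 ^ N := by gcongr
      _ = 2 ^ (N + (b₀ + 1)) := by ring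
  · refine le_trans ?_ (hK.trans (min_le_left _ _))
    gcongr

end Vale.Agent.P210.R2.H401
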