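import Vale.Agent.P210.R2.H53.RSpec

open Set Metric
open Vale.Agent.P210.R2.H53 (HCge)

noncomputable section

namespace Vale.Agent.P210.R2.H401

/-- metric space with volumes of balls, Laplacian masses and gradient products -/
structure Sp where
  X : Type
  ms : MetricSpace X
  K : ℝ
  V : X → ℝ → ℝ
  LM : X → X → ℝ → ℝ → Prop
  GN : X → X → X → ℝ → ℝ → ℝ → Prop

attribute [instance] Sp.ms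

/-- the axioms -/
structure Ax (n : ℕ) (S : Sp) : Prop where
  Kpos : 0 < S.K
  pos : ∀ (x : S.X) (r : ℝ), 0 < r → 0 < S.V x r
  sub : ∀ (x y : S.X) (s t : ℝ), dist x y + s ≤ t → S.V x s ≤ S.V y t
  bg : ∀ (x : S.X) (s t : ℝ), 0 < s → s ≤ t →
    S.V x t ≤ (t / s) ^ n * Real.exp (S.K * t ^ 2) * S.V x s
  pack : ∀ (Z : Finset S.X) (y : S.X) (s t : ℝ), (∀ z ∈ Z, dist z y + s ≤ t) →
    (∀ z ∈ Z, ∀ z' ∈ Z, z ≠ z' → 2 * s ≤ dist z z') → ∑ z ∈ Z, S.V z s ≤ S.V y t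
  lm : ∀ (p y z : S.X) (s s' a a' : ℝ), dist z y + s' ≤ s → a ≤ a' →
    S.LM p y s a → S.LM p z s' a'
  gn : ∀ (p p' y z : S.X) (s s' σ a a' : ℝ), dist z y + s' ≤ s → a ≤ a' →
    S.GN p p' y s σ a → S.GN p p' z s' σ a'
  gs : ∀ (p p' y : S.X) (s σ a : ℝ), S.GN p p' y s σ a → S.GN p' p y s σ a

/-- `p` is a pole for the ball `B(y, r)` -/
def PL (S : Sp) (η : ℝ) (p y : S.X) (r : ℝ) : Prop :=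
  r ≤ η * dist p y ∧ S.K * r * dist p y ≤ η ∧ S.LM p y (16 * r) (η * S.V y r / r)

/-- the inputs of the induction, for a class of spaces -/
structure Inp (n : ℕ) (C : Sp → Prop) : Prop where
  ax : ∀ S, C S → Ax n S
  mass : ∃ c : ℝ, 0 < c ∧ ∀ S, C S → ∀ (x y : S.X) (r κ : ℝ), 0 < r → 0 < κ → κ ≤ 1 →
    S.K * r ^ 2 ≤ 1 → dist x y ≤ 2 * r → ∀ (Z : Finset S.X) (t a : S.X → ℝ),
    (∀ z ∈ Z, 0 < t z ∧ t z ≤ r ∧ dist z y ≤ r ∧ κ * r + t z ≤ dist x z ∧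
      ¬ S.LM x z (t z) (a z)) →
    (∀ z ∈ Z, ∀ z' ∈ Z, z ≠ z' → t z + t z' ≤ dist z z') →
    ∑ z ∈ Z, a z ≤ c * S.V y r / (κ * r)
  coni : ∀ Ψ > 0, ∃ c > 0, ∀ lam > 0, ∃ e > 0, ∀ S, C S → ∀ (x z : S.X) (T t : ℝ), 0 < T →
    S.K * T ^ 2 ≤ e → S.V x (lam * T) ≤ (1 + e) * lam ^ n * S.V x T →
    dist x z ≤ T / 4 → lam * T ≤ t → t ≤ c * dist x z → PL S Ψ x z t
  slope : ∀ Ψ > 0, ∃ c > 0, ∀ lam > 0, ∃ η > 0, ∀ S, C S → ∀ (p y x z : S.X) (r s : ℝ),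
    0 < r → S.K * r ^ 2 ≤ η → PL S η p y r → dist x y ≤ r → dist z y ≤ r → lam * r ≤ s →
    s ≤ c * dist x z → S.GN p x z (4 * s) ((dist p z - dist p x) / dist x z) (Ψ * S.V z s)
  fin : ∃ η > 0, ∃ L > 0, ∀ S, C S → ∀ (y : S.X) (r : ℝ) (p : Fin (n - 1) → S.X), L ≤ r →
    S.K * r ^ 2 ≤ η → (∀ i, PL S η (p i) y r) →
    (∀ i j, i ≠ j → ∃ σ : ℝ, |σ| ≤ 1 / (16 * n) ∧
      S.GN (p i) (p j) y (4 * r) σ (η * S.V y r)) → False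

/-- the state after `j` steps: a set of large content on the scales `t / 2 ^ b` to `t` with `j`
almost orthogonal poles -/
def St (n j b : ℕ) (η : ℝ) (S : Sp) : Prop :=
  ∃ (y : S.X) (t : ℝ) (A : Set S.X) (p : Fin j → S.X), 2 ^ b ≤ t ∧ S.K * (2 * t) ^ 2 ≤ η ∧
    A ⊆ closedBall y (2 * t) ∧ HCge n (t / 2 ^ b) A (t ^ (n - 1) / 2 ^ n) ∧
    (∀ i, PL S η (p i) y (2 * t)) ∧
    ∀ i k, i < k → ∃ σ : ℝ, |σ| ≤ 1 / (16 * n) ∧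
      S.GN (p i) (p k) y (8 * t) σ (η * S.V y (2 * t))

namespace Stmt

/-- separated sets and covers -/
def COVER : Prop := ∀ (n : ℕ) (a : ℝ), ∃ N : ℕ, 1 ≤ N ∧ ∀ S, Ax n S →
  ∀ (y : S.X) (s t : ℝ), 0 < s → s ≤ t → t ≤ a * s → S.K * t ^ 2 ≤ 1 →
  (∀ Z : Finset S.X, (∀ z ∈ Z, dist z y ≤ t) →
    (∀ z ∈ Z, ∀ z' ∈ Z, z ≠ z' → s ≤ dist z z') → Z.card ≤ N) ∧
  ∀ A ⊆ closedBall y t, ∃ F : Finset S.X, F.card ≤ N ∧ A ⊆ ⋃ c ∈ F, closedBall c s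

/-- a set of large content is dense at some scale outside of the bad scales -/
def DENS : Prop := ∀ (X : Type) [MetricSpace X] (n b D N N₀ K₁ : ℕ) (ρ t₀ ε : ℝ) (A : Set X)
  (B : Finset ℕ), 2 ≤ n → 1 ≤ b → 1 ≤ D → 0 < t₀ → 0 < ρ → ρ ≤ t₀ / 2 ^ (N + b) →
  B.card ≤ K₁ →
  (∀ k < N, ∀ w : X, ∃ F : Finset X, F.card ≤ D ∧
    A ∩ closedBall w (2 * (t₀ / 2 ^ k)) ⊆ ⋃ c ∈ F, closedBall c (t₀ / 2 ^ (k + 1))) →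
  (∃ F : Finset X, F.card ≤ N₀ ∧ A ⊆ ⋃ c ∈ F, closedBall c t₀) →
  HCge n ρ A (ε * t₀ ^ (n - 1)) →
  N₀ * 2 ^ n * (D : ℝ) ^ K₁ * (1 - 1 / (2 * b)) ^ N < ε →
  ∃ k < N, k ∉ B ∧ ∃ w ∈ A, HCge n (t₀ / 2 ^ k / 2 ^ b)
    (A ∩ closedBall w (2 * (t₀ / 2 ^ k))) ((t₀ / 2 ^ k) ^ (n - 1) / 2 ^ n)

/-- two points of a set of large content with almost equal values of `j ≤ n - 2` functions -/
def PAIR : Prop := ∀ (n j : ℕ), j + 2 ≤ n → ∀ c₀ > 0, ∀ θ > 0, ∃ g > 0, g ≤ 1 ∧ ∀ N₁ : ℕ,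
  ∃ c₂ > 0, ∀ (X : Type) [MetricSpace X] (A : Set X) (w : X) (t ρ g₁ : ℝ)
    (h : Fin j → X → ℝ), 0 < t → 0 < ρ → ρ ≤ g * t → 0 < g₁ → A ⊆ closedBall w (2 * t) →
  HCge n ρ A (c₀ * t ^ (n - 1)) →
  (∃ F : Finset X, F.card ≤ N₁ ∧ A ⊆ ⋃ c ∈ F, closedBall c (g₁ * t / 2)) →
  (∀ i, LipschitzWith 1 (h i)) →
  ∃ x ∈ A, ∃ z ∈ A, HCge n ρ (A ∩ closedBall z (g₁ * t)) (c₂ * t ^ (n - 1)) ∧
    g * t ≤ dist x z ∧ ∀ i, |h i x - h i z| ≤ θ * dist x z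

/-- Vitali covering with distances instead of disjointness -/
def VIT : Prop := ∀ (X : Type) [MetricSpace X] (P : Set X) (t : X → ℝ) (R : ℝ),
  (∀ z ∈ P, 0 < t z ∧ t z ≤ R) → ∃ u ⊆ P,
    (∀ z ∈ u, ∀ z' ∈ u, z ≠ z' → 16 * t z + 16 * t z' ≤ dist z z') ∧
    ∀ a ∈ P, ∃ b ∈ u, dist a b ≤ 48 * t b

/-- the content of the set of bad points is small -/
def BAD : Prop := ∀ (n : ℕ) (C : Sp → Prop), 2 ≤ n → Inp n C → ∀ κ > 0, κ ≤ 1 → ∀ η > 0,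
  ∀ ε > 0, ∃ L > 0, ∀ S, C S → ∀ (x y : S.X) (r ρ ρ₁ ρ₂ : ℝ) (P : Set S.X), 0 < ρ → ρ ≤ ρ₁ →
  ρ₁ ≤ ρ₂ → 16 * ρ₂ ≤ κ * r → S.K * r ^ 2 ≤ 1 → dist x y ≤ r →
  (∀ z ∈ P, dist z y ≤ r ∧ 2 * κ * r ≤ dist x z ∧
    L * (ρ₂ / r) ^ n * S.V z r < S.V z ρ₂ ∧
    ∃ t, ρ₁ ≤ t ∧ t ≤ ρ₂ ∧ ¬ S.LM x z (16 * t) (η * S.V z t / t)) →
  ¬ HCge n ρ P (ε * r ^ (n - 1))

/-- the number of scales which are not conical -/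
def FLAT : Prop := ∀ (n a : ℕ) (e L : ℝ), 0 < e → 0 < L → ∃ K₁ : ℕ, ∀ S, Ax n S →
  ∀ (z : S.X) (r : ℝ) (N : ℕ), 0 < r → S.K * r ^ 2 ≤ 1 →
  S.V z (r / 2 ^ (N + a)) ≤ L * ((1 / 2) ^ (N + a)) ^ n * S.V z r →
  ∃ B ⊆ Finset.range N, B.card ≤ K₁ ∧ ∀ k < N, k ∉ B →
    S.V z ((1 / 2) ^ a * (r / 2 ^ k)) ≤ (1 + e) * ((1 / 2) ^ a) ^ n * S.V z (r / 2 ^ k)

/-- pigeonhole over the patterns of at most `K₁` bad scales -/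
def PIG : Prop := ∀ (X : Type) [MetricSpace X] (n N K₁ : ℕ) (ρ a : ℝ) (P : Set X)
  (Q : X → Finset ℕ → Prop), 0 < ρ → 0 < a → HCge n ρ P a →
  (∀ z ∈ P, ∃ B ⊆ Finset.range N, B.card ≤ K₁ ∧ Q z B) →
  ∃ B : Finset ℕ, B.card ≤ K₁ ∧ HCge n ρ {z ∈ P | Q z B} (a / ((N : ℝ) + 1) ^ K₁)

/-- choice of the number of scales -/
def LIM : Prop := ∀ (b K₁ m : ℕ) (c ε : ℝ), 1 ≤ b → 0 < ε → ∃ N : ℕ, m ≤ N ∧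
  c * (1 - 1 / (2 * (b : ℝ))) ^ N < ε / ((N : ℝ) + 1) ^ K₁

/-- one step of the induction -/
def STEP : Prop := ∀ (n : ℕ) (C : Sp → Prop), 2 ≤ n → Inp n C → ∀ j, j + 2 ≤ n →
  (∃ (b : ℕ) (η : ℝ), 0 < η ∧ ∀ S, C S → ¬ St n (j + 1) b η S) →
  ∃ (b : ℕ) (η : ℝ), 0 < η ∧ ∀ S, C S → ¬ St n j b η S

/-- the abstract theorem -/
def ABS : Prop := ∀ (n : ℕ) (C : Sp → Prop), 2 ≤ n → Inp n C → ∀ ε > 0, ∃ R > 0, ∃ δ > 0,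
  ∀ S, C S → S.K ≤ δ → ∀ y : S.X, ¬ HCge n 1 (closedBall y R) (ε * R ^ (n - 1))

end Stmt

end Vale.Agent.P210.R2.H401
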