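import Vale.Agent.P210.R2.H401.LemA

open Set Filter Topology

namespace Vale.Agent.P210.R2.H401

open Real

section

variable {X : Type*} [MetricSpace X]

lemma MG.dist_zero {c : ℝ → X} {a s : ℝ} (hc : MG c 0 a) (hs : s ∈ Icc 0 a) :
    dist (c s) (c 0) = s := by
  rw [hc s hs 0 ⟨le_rfl, hs.1.trans hs.2⟩, sub_zero, abs_of_nonneg hs.1]

/-- monotonicity of comparison angles -/
theorem twoSided {κ : ℝ} (hκ : 0 < κ) (hX : H2 X κ) {k : ℝ} (hk : k = 2 * κ) {c₁ c₂ : ℝ → X}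
    {a b : ℝ} (h₁ : MG c₁ 0 a) (h₂ : MG c₂ 0 b) (h0 : c₁ 0 = c₂ 0) (ha : 0 < a) (hb : 0 < b)
    (hab : k * (a + b) ≤ 1) {t s : ℝ} (ht : t ∈ Icc 0 a) (hs : s ∈ Icc 0 b) :
    (cosh (k * dist (c₁ a) (c₂ b)) - cosh (k * (a - b))) * (sinh (k * t) * sinh (k * s)) ≤
      (cosh (k * dist (c₁ t) (c₂ s)) - cosh (k * (t - s))) * (sinh (k * a) * sinh (k * b)) := by
  have hk0 : 0 < k := by rw [hk]; positivity
  have hSa : 0 < sinh (k * a) := sinh_pos_iff.2 (mul_pos hk0 ha)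
  have hSb : 0 < sinh (k * b) := sinh_pos_iff.2 (mul_pos hk0 hb)
  have hSab : 0 < sinh (k * a) * sinh (k * b) := mul_pos hSa hSb
  have hd : ∀ t ∈ Icc 0 a, ∀ s ∈ Icc 0 b, k * dist (c₁ t) (c₂ s) ≤ 1 := by
    intro t ht s hs
    refine le_trans (mul_le_mul_of_nonneg_left ?_ hk0.le) hab
    refine (dist_triangle _ (c₁ 0) _).trans ?_
    rw [h₁.dist_zero ht, h0, dist_comm, h₂.dist_zero hs]
    exact add_le_add ht.2 hs.2
  obtain ⟨lam, hlam⟩ : ∃ lam : ℝ, lam = (cosh (k * a) * cosh (k * b) -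
      cosh (k * dist (c₁ a) (c₂ b))) / (sinh (k * a) * sinh (k * b)) := ⟨_, rfl⟩
  have hlam' : lam * (sinh (k * a) * sinh (k * b)) = cosh (k * a) * cosh (k * b) -
      cosh (k * dist (c₁ a) (c₂ b)) := by
    rw [hlam, div_mul_cancel₀ _ hSab.ne']
  have haI : a ∈ Icc 0 a := ⟨ha.le, le_rfl⟩
  have hbI : b ∈ Icc 0 b := ⟨hb.le, le_rfl⟩
  have step1 := lemA hκ hX h₂ hk (q := c₁ a) (fun s hs => hd a haI s hs) (A := cosh (k * a))
    (B := - lam * sinh (k * a)) (by rw [← h0, h₁.dist_zero haI]) (by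
      have : - lam * sinh (k * a) * sinh (k * b) = - (lam * (sinh (k * a) * sinh (k * b))) := by
        ring
      rw [this, hlam']; linarith)
  have step2 := lemA hκ hX h₁ hk (q := c₂ s) (fun t ht => by rw [dist_comm]; exact hd t ht s hs)
    (A := cosh (k * s)) (B := - lam * sinh (k * s)) (by rw [h0, h₂.dist_zero hs]) (by
      have := step1 s hs
      rw [dist_comm (c₂ s)]
      linarith) t ht
  have e1 : cosh (k * (a - b)) = cosh (k * a) * cosh (k * b) - sinh (k * a) * sinh (k * b) := by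
    rw [mul_sub, cosh_sub]
  have e2 : cosh (k * (t - s)) = cosh (k * t) * cosh (k * s) - sinh (k * t) * sinh (k * s) := by
    rw [mul_sub, cosh_sub]
  have e3 : cosh (k * dist (c₁ a) (c₂ b)) - cosh (k * (a - b)) =
      (1 - lam) * (sinh (k * a) * sinh (k * b)) := by
    rw [e1, sub_mul, hlam']; ring
  have e4 : (1 - lam) * (sinh (k * t) * sinh (k * s)) ≤
      cosh (k * dist (c₁ t) (c₂ s)) - cosh (k * (t - s)) := by
    rw [e2]
    rw [dist_comm (c₂ s)] at step2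
    linarith
  rw [e3]
  have := mul_le_mul_of_nonneg_right e4 hSab.le
  linarith

/-- concatenation -/
lemma concat_MG {c₁ c₂ : ℝ → X} {p q : ℝ} (hp : 0 ≤ p) (hq : 0 ≤ q) (h₁ : MG c₁ 0 p)
    (h₂ : MG c₂ 0 q) (h : c₁ p = c₂ 0) (hd : dist (c₁ 0) (c₂ q) = p + q) :
    MG (fun r => if r ≤ p then c₁ r else c₂ (r - p)) 0 (p + q) := by
  have key : ∀ u ∈ Icc 0 p, ∀ v ∈ Icc 0 q, dist (c₁ u) (c₂ v) = p - u + v := by
    intro u hu v hv
    have hpI : p ∈ Icc 0 p := ⟨hp, le_rfl⟩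
    have hqI : q ∈ Icc 0 q := ⟨hq, le_rfl⟩
    have h0I : (0 : ℝ) ∈ Icc 0 p := ⟨le_rfl, hp⟩
    have e1 : dist (c₁ u) (c₁ p) = p - u := by
      rw [h₁ u hu p hpI, abs_sub_comm, abs_of_nonneg (by linarith [hu.2])]
    have e2 : dist (c₂ 0) (c₂ v) = v := by rw [dist_comm, h₂.dist_zero hv]
    have e3 : dist (c₁ 0) (c₁ u) = u := by rw [dist_comm, h₁.dist_zero hu]
    have e4 : dist (c₂ v) (c₂ q) = q - v := by
      rw [h₂ v hv q hqI, abs_sub_comm, abs_of_nonneg (by linarith [hv.2])]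
    apply le_antisymm
    · have := dist_triangle (c₁ u) (c₁ p) (c₂ v)
      rw [e1, h, e2] at this
      exact this
    · have t1 := dist_triangle (c₁ 0) (c₁ u) (c₂ q)
      have t2 := dist_triangle (c₁ u) (c₂ v) (c₂ q)
      linarith
  intro s hs t ht
  simp only
  by_cases hsp : s ≤ p
  · by_cases htp : t ≤ p
    · rw [if_pos hsp, if_pos htp]
      exact h₁ s ⟨hs.1, hsp⟩ t ⟨ht.1, htp⟩
    · rw [if_pos hsp, if_neg htp]
      rw [not_le] at htp
      rw [key s ⟨hs.1, hsp⟩ (t - p) ⟨by linarith, by linarith [ht.2]⟩, abs_sub_comm,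
        abs_of_nonneg (by linarith)]
      ring
  · rw [not_le] at hsp
    by_cases htp : t ≤ p
    · rw [if_neg (not_le.2 hsp), if_pos htp, dist_comm,
        key t ⟨ht.1, htp⟩ (s - p) ⟨by linarith, by linarith [hs.2]⟩, abs_of_nonneg (by linarith)]
      ring
    · rw [not_le] at htp
      rw [if_neg (not_le.2 hsp), if_neg (not_le.2 htp),
        h₂ (s - p) ⟨by linarith, by linarith [hs.2]⟩ (t - p) ⟨by linarith, by linarith [ht.2]⟩]
      congr 1
      ring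

/-- geodesics through a given intermediate point -/
lemma exists_geo_through
    (hgeo : ∀ x y : X, ∃ c : ℝ → X, MG c 0 (dist x y) ∧ c 0 = x ∧ c (dist x y) = y)
    {o x x' : X} {s : ℝ} (h1 : dist o x' = s * dist o x)
    (h2 : dist x' x = (1 - s) * dist o x) :
    ∃ c : ℝ → X, MG c 0 (dist o x) ∧ c 0 = o ∧ c (dist o x) = x ∧ c (s * dist o x) = x' := by
  obtain ⟨c₁, a1, a2, a3⟩ := hgeo o x'
  obtain ⟨c₂, b1, b2, b3⟩ := hgeo x' x
  have hsum : dist o x' + dist x' x = dist o x := by rw [h1, h2]; ring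
  have hd : dist (c₁ 0) (c₂ (dist x' x)) = dist o x' + dist x' x := by rw [a2, b3, hsum]
  have := concat_MG dist_nonneg dist_nonneg a1 b1 (by rw [a3, b2]) hd
  rw [hsum] at this
  refine ⟨_, this, ?_, ?_, ?_⟩
  · rw [if_pos dist_nonneg, a2]
  · by_cases h : dist o x ≤ dist o x'
    · have e : dist x' x = 0 := by
        have : 0 ≤ dist x' x := dist_nonneg
        linarith
      rw [if_pos h]
      have e' : x' = x := dist_eq_zero.1 e
      rw [← e', a3]
    · rw [if_neg h]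
      have : dist o x - dist o x' = dist x' x := by linarith
      rw [this, b3]
  · rw [← h1, if_pos le_rfl, a3]

end

/-- choice of the scale -/
lemma exists_scale {ε : ℝ} (hε : 0 < ε) : ∃ x0 : ℝ, 0 < x0 ∧ x0 ≤ 1 ∧ cosh x0 ^ 3 ≤ 1 + ε := by
  have hc : Tendsto (fun x : ℝ => cosh x ^ 3) (𝓝 0) (𝓝 (cosh 0 ^ 3)) :=
    Continuous.tendsto (by fun_prop) 0
  rw [cosh_zero, one_pow] at hc
  have h1 : ∀ᶠ x in 𝓝 (0 : ℝ), cosh x ^ 3 < 1 + ε := hc.eventually (gt_mem_nhds (by linarith))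
  have h2 : ∀ᶠ x in 𝓝[>] (0 : ℝ), cosh x ^ 3 < 1 + ε := nhdsWithin_le_nhds h1
  have h3 : ∀ᶠ x in 𝓝[>] (0 : ℝ), x < 1 := nhdsWithin_le_nhds (gt_mem_nhds zero_lt_one)
  have h4 : ∀ᶠ x in 𝓝[>] (0 : ℝ), 0 < x := eventually_mem_nhdsWithin
  obtain ⟨x, a, b, c⟩ := (h2.and (h3.and h4)).exists
  exact ⟨x, c, b.le, a.le⟩

lemma cosh_le_c0 {x0 x : ℝ} (hx : |x| ≤ x0) : cosh x ≤ cosh x0 :=
  cosh_le_cosh.2 (hx.trans (le_abs_self x0))

/-- the first elementary conclusion -/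
lemma arith1 {k a b D d s x0 : ℝ} (hk : 0 < k) (ha : 0 < a) (hb : 0 < b) (hs : 0 < s)
    (hD0 : 0 ≤ D) (hd0 : 0 ≤ d)
    (hka : k * a ≤ x0) (hkb : k * b ≤ x0) (hkD : k * D ≤ x0) (hkd : k * d ≤ x0)
    (hDab : |a - b| ≤ D)
    (h : (cosh (k * D) - cosh (k * (a - b))) * (sinh (k * (s * a)) * sinh (k * (s * b))) ≤
      (cosh (k * d) - cosh (k * (s * a - s * b))) * (sinh (k * a) * sinh (k * b))) :
    s ^ 2 * D ^ 2 ≤ cosh x0 ^ 3 * d ^ 2 := by
  have hx0 : 0 ≤ x0 := (mul_pos hk ha).le.trans hka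
  obtain ⟨L, hL⟩ : ∃ L : ℝ, L = cosh x0 := ⟨_, rfl⟩
  have hL1 : 1 ≤ L := hL ▸ one_le_cosh x0
  have hL0 : 0 < L := by linarith
  have hSa : 0 < sinh (k * a) := sinh_pos_iff.2 (mul_pos hk ha)
  have hSb : 0 < sinh (k * b) := sinh_pos_iff.2 (mul_pos hk hb)
  have r1 : ∀ x, 0 < x → k * x ≤ x0 → s * sinh (k * x) ≤ L * sinh (k * (s * x)) := by
    intro x hx hxx
    have e1 := sinh_le_mul_cosh (mul_pos hk hx).le
    have e2 : k * (s * x) ≤ sinh (k * (s * x)) := le_sinh (by positivity)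
    have e3 : cosh (k * x) ≤ L := by
      rw [hL]; exact cosh_le_c0 (by rwa [abs_of_pos (mul_pos hk hx)])
    have e4 : s * sinh (k * x) ≤ s * (k * x * L) := by
      refine mul_le_mul_of_nonneg_left (e1.trans ?_) hs.le
      exact mul_le_mul_of_nonneg_left e3 (mul_pos hk hx).le
    have e5 : L * (k * (s * x)) ≤ L * sinh (k * (s * x)) := mul_le_mul_of_nonneg_left e2 hL0.le
    linarith
  have r2 : s ^ 2 * (sinh (k * a) * sinh (k * b)) ≤
      L ^ 2 * (sinh (k * (s * a)) * sinh (k * (s * b))) := by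
    have e1 := r1 a ha hka
    have e2 := r1 b hb hkb
    have := mul_le_mul e1 e2 (by positivity)
      ((mul_pos hs hSa).le.trans e1)
    nlinarith
  have hP : 0 ≤ cosh (k * D) - cosh (k * (a - b)) := by
    refine sub_nonneg.2 (cosh_le_cosh.2 ?_)
    rw [abs_mul, abs_mul, abs_of_pos hk, abs_of_nonneg hD0]
    exact mul_le_mul_of_nonneg_left hDab hk.le
  have r3 : s ^ 2 * (cosh (k * D) - cosh (k * (a - b))) ≤
      L ^ 2 * (cosh (k * d) - cosh (k * (s * a - s * b))) := by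
    have e1 := mul_le_mul_of_nonneg_left r2 hP
    have e2 := mul_le_mul_of_nonneg_left h (sq_nonneg L)
    have e3 : (s ^ 2 * (cosh (k * D) - cosh (k * (a - b)))) * (sinh (k * a) * sinh (k * b)) ≤
      (L ^ 2 * (cosh (k * d) - cosh (k * (s * a - s * b)))) * (sinh (k * a) * sinh (k * b)) := by
      linarith
    exact le_of_mul_le_mul_right e3 (mul_pos hSa hSb)
  have hab : |k * (a - b)| ≤ x0 := by
    rw [abs_mul, abs_of_pos hk]
    exact (mul_le_mul_of_nonneg_left hDab hk.le).trans hkD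
  have r4 : s ^ 2 * (cosh (k * (a - b)) - 1) ≤ L ^ 2 * (cosh (k * (s * a - s * b)) - 1) := by
    have e1 := cosh_sub_one_le (k * (a - b))
    have e2 : cosh (k * (a - b)) ≤ L := by rw [hL]; exact cosh_le_c0 hab
    have e3 := half_sq_le (k * (s * a - s * b))
    have e4 : cosh (k * (a - b)) - 1 ≤ (k * (a - b)) ^ 2 / 2 * L :=
      e1.trans (mul_le_mul_of_nonneg_left e2 (by positivity))
    have e5 := mul_le_mul_of_nonneg_left e4 (sq_nonneg s)
    have e6 := mul_le_mul_of_nonneg_left e3 (sq_nonneg L)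
    have e7 : s ^ 2 * ((k * (a - b)) ^ 2 / 2 * L) ≤ L ^ 2 * ((k * (s * a - s * b)) ^ 2 / 2) := by
      have : L ^ 2 * ((k * (s * a - s * b)) ^ 2 / 2) =
        (s ^ 2 * (k * (a - b)) ^ 2 / 2) * L * L := by ring
      rw [this]
      have h0 : 0 ≤ (s ^ 2 * (k * (a - b)) ^ 2 / 2) * L := by positivity
      nlinarith
    linarith
  have r5 : s ^ 2 * (cosh (k * D) - 1) ≤ L ^ 2 * (cosh (k * d) - 1) := by linarith
  have e1 := half_sq_le (k * D)
  have e2 := cosh_sub_one_le (k * d)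
  have e3 : cosh (k * d) ≤ L := by
    rw [hL]; exact cosh_le_c0 (by rwa [abs_of_nonneg (mul_nonneg hk.le hd0)])
  have e4 : cosh (k * d) - 1 ≤ (k * d) ^ 2 / 2 * L :=
    e2.trans (mul_le_mul_of_nonneg_left e3 (by positivity))
  have e5 := mul_le_mul_of_nonneg_left e1 (sq_nonneg s)
  have e6 := mul_le_mul_of_nonneg_left e4 (sq_nonneg L)
  have e7 : k ^ 2 * (s ^ 2 * D ^ 2) ≤ k ^ 2 * (L ^ 3 * d ^ 2) := by
    have := e5.trans (r5.trans e6)
    nlinarith
  rw [← hL]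
  exact le_of_mul_le_mul_left e7 (by positivity)

/-- the second elementary conclusion -/
lemma arith2 {k a b D d t x0 : ℝ} (hk : 0 < k) (ha : 0 < a) (hb : 0 < b) (ht : 0 < t)
    (hd0 : 0 ≤ d)
    (hka : k * a ≤ x0) (hkb : k * b ≤ x0) (hkd : k * d ≤ x0)
    (hab : |k * (a - b)| ≤ x0)
    (h : (cosh (k * D) - cosh (k * (a - b))) * (sinh (k * t) * sinh (k * t)) ≤
      (cosh (k * d) - cosh (k * (t - t))) * (sinh (k * a) * sinh (k * b))) :
    D ^ 2 ≤ cosh x0 ^ 3 * ((a - b) ^ 2 + a * b * (d / t) ^ 2) := by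
  have hx0 : 0 ≤ x0 := (mul_pos hk ha).le.trans hka
  obtain ⟨L, hL⟩ : ∃ L : ℝ, L = cosh x0 := ⟨_, rfl⟩
  have hL1 : 1 ≤ L := hL ▸ one_le_cosh x0
  have hL0 : 0 < L := by linarith
  rw [sub_self, mul_zero, cosh_zero] at h
  have hSa : 0 < sinh (k * a) := sinh_pos_iff.2 (mul_pos hk ha)
  have hSb : 0 < sinh (k * b) := sinh_pos_iff.2 (mul_pos hk hb)
  have hSt : 0 < sinh (k * t) := sinh_pos_iff.2 (mul_pos hk ht)
  have r1 : ∀ x, 0 < x → k * x ≤ x0 → t * sinh (k * x) ≤ L * x * sinh (k * t) := by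
    intro x hx hxx
    have e1 := sinh_le_mul_cosh (mul_pos hk hx).le
    have e2 : k * t ≤ sinh (k * t) := le_sinh (by positivity)
    have e3 : cosh (k * x) ≤ L := by
      rw [hL]; exact cosh_le_c0 (by rwa [abs_of_pos (mul_pos hk hx)])
    have e4 : t * sinh (k * x) ≤ t * (k * x * L) := by
      refine mul_le_mul_of_nonneg_left (e1.trans ?_) ht.le
      exact mul_le_mul_of_nonneg_left e3 (mul_pos hk hx).le
    have e5 : L * x * (k * t) ≤ L * x * sinh (k * t) :=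
      mul_le_mul_of_nonneg_left e2 (mul_pos hL0 hx).le
    linarith
  have r2 : t ^ 2 * (sinh (k * a) * sinh (k * b)) ≤
      L ^ 2 * (a * b) * (sinh (k * t) * sinh (k * t)) := by
    have e1 := r1 a ha hka
    have e2 := r1 b hb hkb
    have := mul_le_mul e1 e2 (by positivity) ((mul_pos ht hSa).le.trans e1)
    nlinarith
  have e1 := cosh_sub_one_le (k * (a - b))
  have e2 : cosh (k * (a - b)) ≤ L := by rw [hL]; exact cosh_le_c0 hab
  have e3 : cosh (k * (a - b)) - 1 ≤ (k * (a - b)) ^ 2 / 2 * L :=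
    e1.trans (mul_le_mul_of_nonneg_left e2 (by positivity))
  have e4 := cosh_sub_one_le (k * d)
  have e5 : cosh (k * d) ≤ L := by
    rw [hL]; exact cosh_le_c0 (by rwa [abs_of_nonneg (mul_nonneg hk.le hd0)])
  have e6 : cosh (k * d) - 1 ≤ (k * d) ^ 2 / 2 * L :=
    e4.trans (mul_le_mul_of_nonneg_left e5 (by positivity))
  have hc1 : 0 ≤ cosh (k * d) - 1 := by linarith [one_le_cosh (k * d)]
  have r3 : t ^ 2 * (cosh (k * D) - cosh (k * (a - b))) ≤
      L ^ 2 * (a * b) * (cosh (k * d) - 1) := by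
    have f1 := mul_le_mul_of_nonneg_left r2 hc1
    have f2 := mul_le_mul_of_nonneg_left h (sq_nonneg t)
    have f3 : (t ^ 2 * (cosh (k * D) - cosh (k * (a - b)))) * (sinh (k * t) * sinh (k * t)) ≤
      (L ^ 2 * (a * b) * (cosh (k * d) - 1)) * (sinh (k * t) * sinh (k * t)) := by
      linarith
    exact le_of_mul_le_mul_right f3 (mul_pos hSt hSt)
  have r4 : L ^ 2 * (a * b) * (cosh (k * d) - 1) ≤
      L ^ 2 * (a * b) * ((k * d) ^ 2 / 2 * L) :=
    mul_le_mul_of_nonneg_left e6 (by positivity)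
  have r5 : t ^ 2 * ((k * D) ^ 2 / 2) ≤ t ^ 2 * (cosh (k * D) - 1) :=
    mul_le_mul_of_nonneg_left (half_sq_le _) (sq_nonneg t)
  have r6 : t ^ 2 * (cosh (k * (a - b)) - 1) ≤ t ^ 2 * ((k * (a - b)) ^ 2 / 2 * L ^ 3) := by
    refine mul_le_mul_of_nonneg_left (e3.trans ?_) (sq_nonneg t)
    refine mul_le_mul_of_nonneg_left ?_ (by positivity)
    nlinarith [pow_pos hL0 2]
  have r7 : (k ^ 2 * t ^ 2) * D ^ 2 ≤ (k ^ 2 * t ^ 2) *
      (L ^ 3 * ((a - b) ^ 2 + a * b * (d / t) ^ 2)) := by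
    have e : (k ^ 2 * t ^ 2) * (L ^ 3 * ((a - b) ^ 2 + a * b * (d / t) ^ 2)) =
        2 * (t ^ 2 * ((k * (a - b)) ^ 2 / 2 * L ^ 3)) +
        2 * (L ^ 2 * (a * b) * ((k * d) ^ 2 / 2 * L)) := by
      field_simp
    rw [e]
    linarith
  rw [← hL]
  exact le_of_mul_le_mul_left r7 (by positivity)

theorem cmp_pure (ε : ℝ) (hε : 0 < ε) : ∃ τ : ℝ, 0 < τ ∧ ∀ (X : Type) [MetricSpace X] (κ T : ℝ),
    0 < κ → 0 < T → κ * T ≤ τ →
    (∀ x y : X, ∃ c : ℝ → X, MG c 0 (dist x y) ∧ c 0 = x ∧ c (dist x y) = y) →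
    H2 X κ →
    (∀ (o x y x' y' : X) (s : ℝ), s ∈ Ioc (0 : ℝ) 1 → dist o x ≤ T → dist o y ≤ T →
      dist o x' = s * dist o x → dist x' x = (1 - s) * dist o x →
      dist o y' = s * dist o y → dist y' y = (1 - s) * dist o y →
      s * (1 - ε) * dist x y ≤ dist x' y') ∧
    (∀ (c₁ c₂ : ℝ → X) (a b t : ℝ), MG c₁ 0 a → MG c₂ 0 b → c₁ 0 = c₂ 0 → 0 < t →
      t ≤ a → t ≤ b → a ≤ T → b ≤ T →
      dist (c₁ a) (c₂ b) ^ 2 ≤
        (1 + ε) * ((a - b) ^ 2 + a * b * (dist (c₁ t) (c₂ t) / t) ^ 2)) := by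
  obtain ⟨x0, hx0, hx1, hcosh⟩ := exists_scale hε
  refine ⟨x0 / 4, by positivity, ?_⟩
  intro X _ κ T hκ hT hτ hgeo hX
  obtain ⟨k, hk⟩ : ∃ k : ℝ, k = 2 * κ := ⟨_, rfl⟩
  have hk0 : 0 < k := by rw [hk]; positivity
  have hkT : k * (2 * T) ≤ x0 := by rw [hk]; linarith
  have hkx : ∀ x, x ≤ 2 * T → k * x ≤ x0 := fun x hx =>
    (mul_le_mul_of_nonneg_left hx hk0.le).trans hkT
  constructor
  · intro o x y x' y' s hs hx hy h1 h2 h3 h4
    rcases le_total 1 ε with hε1 | hε1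
    · have : s * (1 - ε) * dist x y ≤ 0 :=
        mul_nonpos_of_nonpos_of_nonneg
          (mul_nonpos_of_nonneg_of_nonpos hs.1.le (by linarith)) dist_nonneg
      exact this.trans dist_nonneg
    have hfac : s * (1 - ε) ≤ s := by nlinarith [hs.1]
    rcases (dist_nonneg (x := o) (y := x)).eq_or_lt with ha | ha
    · have e1 : o = x := dist_eq_zero.1 ha.symm
      have e2 : o = x' := by rw [← dist_eq_zero, h1, ← ha, mul_zero]
      rw [← e1, ← e2, h3]
      exact mul_le_mul_of_nonneg_right hfac dist_nonneg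
    rcases (dist_nonneg (x := o) (y := y)).eq_or_lt with hb | hb
    · have e1 : o = y := dist_eq_zero.1 hb.symm
      have e2 : o = y' := by rw [← dist_eq_zero, h3, ← hb, mul_zero]
      rw [← e1, ← e2, dist_comm x, dist_comm x', h1]
      exact mul_le_mul_of_nonneg_right hfac dist_nonneg
    obtain ⟨c₁, a1, a2, a3, a4⟩ := exists_geo_through hgeo h1 h2
    obtain ⟨c₂, b1, b2, b3, b4⟩ := exists_geo_through hgeo h3 h4
    have hsa : s * dist o x ∈ Icc 0 (dist o x) :=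
      ⟨mul_nonneg hs.1.le ha.le, mul_le_of_le_one_left ha.le hs.2⟩
    have hsb : s * dist o y ∈ Icc 0 (dist o y) :=
      ⟨mul_nonneg hs.1.le hb.le, mul_le_of_le_one_left hb.le hs.2⟩
    have key := twoSided hκ hX hk a1 b1 (by rw [a2, b2]) ha hb
      ((hkx _ (by linarith)).trans hx1) hsa hsb
    rw [a3, b3, a4, b4] at key
    have hxy : dist x y ≤ 2 * T := by
      have := dist_triangle_left x y o
      linarith
    have hxy' : dist x' y' ≤ 2 * T := by
      have := dist_triangle_left x' y' o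
      linarith [hsa.2, hsb.2]
    have hab : |dist o x - dist o y| ≤ dist x y := by
      rw [dist_comm o x, dist_comm o y]; exact abs_dist_sub_le _ _ _
    have := arith1 hk0 ha hb hs.1 dist_nonneg dist_nonneg (hkx _ (by linarith))
      (hkx _ (by linarith)) (hkx _ hxy) (hkx _ hxy') hab key
    have h5 : s ^ 2 * dist x y ^ 2 ≤ (1 + ε) * dist x' y' ^ 2 :=
      this.trans (mul_le_mul_of_nonneg_right hcosh (sq_nonneg _))
    have h6 : (s * (1 - ε) * dist x y) ^ 2 ≤ dist x' y' ^ 2 := by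
      have e1 : (1 - ε) ^ 2 * (1 + ε) ≤ 1 := by nlinarith [mul_pos hε hε]
      have e2 : (s * (1 - ε) * dist x y) ^ 2 = (1 - ε) ^ 2 * (s ^ 2 * dist x y ^ 2) := by ring
      rw [e2]
      calc (1 - ε) ^ 2 * (s ^ 2 * dist x y ^ 2) ≤ (1 - ε) ^ 2 * ((1 + ε) * dist x' y' ^ 2) :=
            mul_le_mul_of_nonneg_left h5 (sq_nonneg _)
        _ = ((1 - ε) ^ 2 * (1 + ε)) * dist x' y' ^ 2 := by ring
        _ ≤ 1 * dist x' y' ^ 2 := mul_le_mul_of_nonneg_right e1 (sq_nonneg _)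
        _ = dist x' y' ^ 2 := one_mul _
    exact (le_abs_self _).trans (abs_le_of_sq_le_sq h6 dist_nonneg)
  · intro c₁ c₂ a b t a1 b1 h0 ht hta htb haT hbT
    have ha : 0 < a := ht.trans_le hta
    have hb : 0 < b := ht.trans_le htb
    have hta' : t ∈ Icc 0 a := ⟨ht.le, hta⟩
    have htb' : t ∈ Icc 0 b := ⟨ht.le, htb⟩
    have key := twoSided hκ hX hk a1 b1 h0 ha hb ((hkx _ (by linarith)).trans hx1) hta' htb'
    have hd : dist (c₁ t) (c₂ t) ≤ 2 * T := by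
      have h := dist_triangle (c₁ t) (c₁ 0) (c₂ t)
      rw [a1.dist_zero hta', h0, dist_comm (c₂ 0), b1.dist_zero htb'] at h
      linarith
    have hab : |k * (a - b)| ≤ x0 := by
      rw [abs_mul, abs_of_pos hk0]
      refine hkx _ (abs_le.2 ⟨?_, ?_⟩) <;> linarith
    have := arith2 hk0 ha hb ht dist_nonneg (hkx _ (by linarith)) (hkx _ (by linarith))
      (hkx _ hd) hab key
    refine this.trans (mul_le_mul_of_nonneg_right hcosh ?_)
    positivity

end Vale.Agent.P210.R2.H401
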