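import Vale.Agent.P210.R2.H53.SpecR
import Vale.Agent.P210.R2.H401.Cmp

namespace Vale.Agent.P210.R2.H401

open Vale.Agent.P210.R2.H53

theorem cmp_holds : Stmt.CMP := fun ε hε => cmp_pure ε hε

end Vale.Agent.P210.R2.H401
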