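import Vale.Agent.P210.R2.H401.CSpec

open Set Metric
open Vale.Agent.P210.R2.H53 (HCge)

noncomputable section

namespace Vale.Agent.P210.R2.H401

theorem sep_card {n : ℕ} {a : ℝ} {S : Sp} (hA : Ax n S) {y : S.X} {s t : ℝ} (hs : 0 < s)
    (hst : s ≤ t) (ht : t ≤ a * s) (hK : S.K * t ^ 2 ≤ 1) {Z : Finset S.X}
    (hZ : ∀ z ∈ Z, dist z y ≤ t) (hsep : ∀ z ∈ Z, ∀ z' ∈ Z, z ≠ z' → s ≤ dist z z') :
    (Z.card : ℝ) ≤ (6 * a) ^ n * Real.exp 9 := by
  have ht0 : 0 < t := hs.trans_le hst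
  have hV := hA.pos y (2 * t) (by linarith)
  have h1 := hA.pack Z y (s / 2) (2 * t) (fun z hz => by linarith [hZ z hz])
    (fun z hz z' hz' h => by linarith [hsep z hz z' hz' h])
  set c : ℝ := (6 * a) ^ n * Real.exp 9 with hc
  have ha : 0 < a := by
    by_contra h
    push Not at h
    nlinarith
  have hc0 : 0 < c := by positivity
  have h2 : ∀ z ∈ Z, S.V y (2 * t) / c ≤ S.V z (s / 2) := by
    intro z hz
    have e1 := hA.sub y z (2 * t) (3 * t) (by rw [dist_comm]; linarith [hZ z hz])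
    have e2 := hA.bg z (s / 2) (3 * t) (by linarith) (by linarith)
    have e3 : Real.exp (S.K * (3 * t) ^ 2) ≤ Real.exp 9 := by
      apply Real.exp_le_exp.2; nlinarith
    have e4 : (3 * t / (s / 2)) ^ n ≤ (6 * a) ^ n := by
      apply pow_le_pow_left₀ (by positivity)
      rw [div_le_iff₀ (by linarith)]; nlinarith
    have e5 := hA.pos z (s / 2) (by linarith)
    rw [div_le_iff₀ hc0]
    calc S.V y (2 * t) ≤ S.V z (3 * t) := e1
      _ ≤ (3 * t / (s / 2)) ^ n * Real.exp (S.K * (3 * t) ^ 2) * S.V z (s / 2) := e2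
      _ ≤ (6 * a) ^ n * Real.exp 9 * S.V z (s / 2) := by gcongr
      _ = _ := by ring
  have h3 : (Z.card : ℝ) * (S.V y (2 * t) / c) ≤ S.V y (2 * t) := by
    rw [← nsmul_eq_mul]
    exact (Finset.card_nsmul_le_sum _ _ _ h2).trans h1
  rw [mul_div_assoc', div_le_iff₀ hc0, mul_comm] at h3
  exact le_of_mul_le_mul_left h3 hV

theorem cover : Stmt.COVER := by
  classical
  intro n a
  refine ⟨max 1 ⌈(6 * a) ^ n * Real.exp 9⌉₊, le_max_left _ _, ?_⟩
  intro S hA y s t hs hst ht hK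
  have hb : ∀ Z : Finset S.X, (∀ z ∈ Z, dist z y ≤ t) →
      (∀ z ∈ Z, ∀ z' ∈ Z, z ≠ z' → s ≤ dist z z') →
      Z.card ≤ max 1 ⌈(6 * a) ^ n * Real.exp 9⌉₊ := fun Z hZ hsep =>
    le_max_of_le_right (by exact_mod_cast (sep_card hA hs hst ht hK hZ hsep).trans (Nat.le_ceil _))
  refine ⟨hb, fun A hAy => ?_⟩
  set N := max 1 ⌈(6 * a) ^ n * Real.exp 9⌉₊
  let Q : ℕ → Prop := fun k => ∃ Z : Finset S.X, (∀ z ∈ Z, z ∈ A) ∧
    (∀ z ∈ Z, ∀ z' ∈ Z, z ≠ z' → s ≤ dist z z') ∧ Z.card = k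
  have hQ0 : Q 0 := ⟨∅, by simp, by simp, rfl⟩
  have hQN : ∀ k, Q k → k ≤ N := by
    rintro k ⟨Z, hZ, hsep, rfl⟩
    exact hb Z (fun z hz => hAy (hZ z hz)) hsep
  obtain ⟨Z, hZ, hsep, hcard⟩ := Nat.findGreatest_spec (P := Q) (Nat.zero_le N) hQ0
  refine ⟨Z, hb Z (fun z hz => hAy (hZ z hz)) hsep, fun q hq => ?_⟩
  by_contra hne
  simp only [mem_iUnion, mem_closedBall, not_exists, not_le] at hne
  have hqZ : q ∉ Z := fun h => by
    have := hne q h
    rw [dist_self] at this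
    linarith
  have hQ1 : Q (Z.card + 1) := by
    refine ⟨insert q Z, ?_, ?_, Finset.card_insert_of_notMem hqZ⟩
    · intro z hz
      rcases Finset.mem_insert.1 hz with rfl | hz
      · exact hq
      · exact hZ z hz
    · intro z hz z' hz' hne'
      rcases Finset.mem_insert.1 hz with h1 | h1
      · rcases Finset.mem_insert.1 hz' with h2 | h2
        · exact absurd (h1.trans h2.symm) hne'
        · rw [h1]; exact (hne z' h2).le
      · rcases Finset.mem_insert.1 hz' with h2 | h2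
        · rw [h2, dist_comm]; exact (hne z h1).le
        · exact hsep z h1 z' h2 hne'
  have h1 := hQN _ hQ1
  have h2 := Nat.le_findGreatest h1 hQ1
  omega

end Vale.Agent.P210.R2.H401
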