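import Mathlib.Analysis.SpecialFunctions.Trigonometric.DerivHyp
import Mathlib.Analysis.Calculus.Deriv.MeanValue
import Mathlib.Topology.MetricSpace.Lipschitz

open Set Filter Topology

namespace Vale.Agent.P210.R2.H401

open Real

lemma le_sinh {x : ℝ} (hx : 0 ≤ x) : x ≤ sinh x := self_le_sinh_iff.2 hx

lemma sinh_le_mul_cosh {x : ℝ} (hx : 0 ≤ x) : sinh x ≤ x * cosh x := by
  have h : MonotoneOn (fun y : ℝ => y * cosh y - sinh y) (Ici 0) := by
    refine monotoneOn_of_deriv_nonneg (convex_Ici 0) (by fun_prop) (by fun_prop) ?_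
    intro y hy
    rw [interior_Ici] at hy
    have hd : HasDerivAt (fun y : ℝ => y * cosh y - sinh y)
        ((1 * cosh y + y * sinh y) - cosh y) y :=
      ((hasDerivAt_id y).mul (hasDerivAt_cosh y)).sub (hasDerivAt_sinh y)
    rw [hd.deriv]
    have h1 : 0 ≤ sinh y := sinh_nonneg_iff.2 (le_of_lt hy)
    have h2 : 0 ≤ y := le_of_lt hy
    nlinarith
  have := h (mem_Ici.2 le_rfl) (mem_Ici.2 hx) hx
  simp only [zero_mul, sinh_zero, sub_zero] at this
  linarith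

lemma abs_sinh_eq (x : ℝ) : |sinh x| = sinh |x| := by
  rcases le_total 0 x with h | h
  · rw [abs_of_nonneg h, abs_of_nonneg (sinh_nonneg_iff.2 h)]
  · rw [abs_of_nonpos h, abs_of_nonpos (sinh_nonpos_iff.2 h), sinh_neg]

lemma cosh_sub_one (x : ℝ) : cosh x - 1 = 2 * sinh (x / 2) ^ 2 := by
  have h := cosh_two_mul (x / 2)
  rw [show 2 * (x / 2) = x by ring, cosh_sq] at h
  linarith

lemma half_sq_le (x : ℝ) : x ^ 2 / 2 ≤ cosh x - 1 := by
  rw [cosh_sub_one]
  have h1 : |x / 2| ≤ |sinh (x / 2)| := by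
    rw [abs_sinh_eq]; exact le_sinh (abs_nonneg _)
  have h2 := sq_le_sq.2 h1
  nlinarith

lemma cosh_sub_one_le (x : ℝ) : cosh x - 1 ≤ x ^ 2 / 2 * cosh x := by
  rw [cosh_sub_one x]
  have h1 : |sinh (x / 2)| ≤ |x / 2| * cosh (x / 2) := by
    rw [abs_sinh_eq, ← cosh_abs (x / 2)]; exact sinh_le_mul_cosh (abs_nonneg _)
  have h2 : |sinh (x / 2)| ≤ |x / 2 * cosh (x / 2)| := by
    rw [abs_mul, abs_of_pos (cosh_pos (x / 2))]; exact h1
  have h3 := sq_le_sq.2 h2
  have h4 : cosh (x / 2) ^ 2 ≤ cosh x := by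
    have h := cosh_two_mul (x / 2)
    rw [show 2 * (x / 2) = x by ring] at h
    nlinarith [sq_nonneg (sinh (x / 2))]
  have h5 : (x / 2 * cosh (x / 2)) ^ 2 ≤ (x / 2) ^ 2 * cosh x := by
    rw [mul_pow]; exact mul_le_mul_of_nonneg_left h4 (sq_nonneg _)
  nlinarith

lemma half_mul_cosh_le {x : ℝ} (hx : 0 ≤ x) (hx1 : x ≤ 1) : x / 2 * cosh x ≤ sinh x := by
  have h : MonotoneOn (fun y : ℝ => sinh y - y / 2 * cosh y) (Icc 0 1) := by
    refine monotoneOn_of_deriv_nonneg (convex_Icc 0 1) (by fun_prop) (by fun_prop) ?_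
    intro y hy
    rw [interior_Icc] at hy
    have hd : HasDerivAt (fun y : ℝ => sinh y - y / 2 * cosh y)
        (cosh y - (1 / 2 * cosh y + y / 2 * sinh y)) y :=
      (hasDerivAt_sinh y).sub (((hasDerivAt_id y).div_const 2).mul (hasDerivAt_cosh y))
    rw [hd.deriv]
    have h1 : 0 ≤ sinh y := sinh_nonneg_iff.2 (le_of_lt hy.1)
    have h2 : sinh y < cosh y := sinh_lt_cosh y
    nlinarith [hy.1, hy.2]
  have := h (mem_Icc.2 ⟨le_rfl, zero_le_one⟩) (mem_Icc.2 ⟨hx, hx1⟩) hx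
  simp only [zero_div, zero_mul, sinh_zero, sub_zero] at this
  linarith

lemma key_hyp {x : ℝ} (hx : 0 ≤ x) (hx1 : x ≤ 1) : (1 + x ^ 2 / 4) * sinh x ≤ x * cosh x := by
  have h : MonotoneOn (fun y : ℝ => y * cosh y - (1 + y ^ 2 / 4) * sinh y) (Icc 0 1) := by
    refine monotoneOn_of_deriv_nonneg (convex_Icc 0 1) (by fun_prop) (by fun_prop) ?_
    intro y hy
    rw [interior_Icc] at hy
    have hd : HasDerivAt (fun y : ℝ => y * cosh y - (1 + y ^ 2 / 4) * sinh y)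
        ((1 * cosh y + y * sinh y) - ((2 * y / 4) * sinh y + (1 + y ^ 2 / 4) * cosh y)) y := by
      refine ((hasDerivAt_id y).mul (hasDerivAt_cosh y)).sub (HasDerivAt.mul ?_ (hasDerivAt_sinh y))
      have := ((hasDerivAt_pow 2 y).div_const 4).const_add 1
      simpa using this
    rw [hd.deriv]
    have h2 := half_mul_cosh_le (le_of_lt hy.1) (le_of_lt hy.2)
    nlinarith [hy.1, hy.2]
  have := h (mem_Icc.2 ⟨le_rfl, zero_le_one⟩) (mem_Icc.2 ⟨hx, hx1⟩) hx
  simp only [zero_mul, sinh_zero, mul_zero, sub_zero] at this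
  linarith

lemma sinh_sub_le {x : ℝ} {R : ℝ} (hx : |x| ≤ R) : |sinh x - x| ≤ R * (R ^ 2 / 2 * cosh R) := by
  have hR : 0 ≤ R := (abs_nonneg x).trans hx
  have h0 : |sinh x - x| = sinh |x| - |x| := by
    rcases le_total 0 x with h | h
    · rw [abs_of_nonneg h, abs_of_nonneg (sub_nonneg.2 (le_sinh h))]
    · have : sinh x ≤ x := sinh_le_self_iff.2 h
      rw [abs_of_nonpos h, abs_of_nonpos (by linarith), sinh_neg]; ring
  rw [h0]
  have h1 := sinh_le_mul_cosh (abs_nonneg x)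
  have h2 : cosh |x| ≤ cosh R := cosh_le_cosh.2 (by rwa [abs_abs, abs_of_nonneg hR])
  have h3 := cosh_sub_one_le |x|
  have h4 : sinh |x| - |x| ≤ |x| * (cosh |x| - 1) := by linarith
  refine h4.trans ?_
  refine mul_le_mul hx ?_ (by linarith [one_le_cosh |x|]) hR
  refine h3.trans ?_
  refine mul_le_mul ?_ h2 (cosh_pos _).le (by positivity)
  have := pow_le_pow_left₀ (abs_nonneg x) hx 2
  linarith

end Vale.Agent.P210.R2.H401
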