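import Vale.Agent.P210.R2.H401.Hyp

open Set Filter Topology

namespace Vale.Agent.P210.R2.H401

open Real

def MG {X : Type*} [MetricSpace X] (c : ℝ → X) (a b : ℝ) : Prop :=
  ∀ s ∈ Icc a b, ∀ t ∈ Icc a b, dist (c s) (c t) = |s - t|

/-- the second order hypothesis -/
def H2 (X : Type*) [MetricSpace X] (κ : ℝ) : Prop :=
  ∀ (q : X) (c : ℝ → X) (a b s₀ : ℝ), MG c a b → s₀ ∈ Ioo a b → q ≠ c s₀ →
      ∃ α : ℝ, |α| ≤ 1 ∧
        (∀ η > 0, ∀ᶠ r in 𝓝[>] (0 : ℝ), dist q (c (s₀ + r)) + dist q (c (s₀ - r)) ≤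
          2 * dist q (c s₀) +
            r ^ 2 * ((1 / dist q (c s₀) + κ ^ 2 * dist q (c s₀)) * (1 - α ^ 2) + η)) ∧
        ∃ C : ℝ, ∀ᶠ r in 𝓝 (0 : ℝ), dist q (c (s₀ + r)) ≤ dist q (c s₀) + r * α + C * r ^ 2

section

variable {X : Type*} [MetricSpace X]

lemma MG.lip {c : ℝ → X} {a b : ℝ} (hc : MG c a b) {q : X} {s t : ℝ} (hs : s ∈ Icc a b)
    (ht : t ∈ Icc a b) : |dist q (c s) - dist q (c t)| ≤ |s - t| := by
  rw [← hc s hs t ht, dist_comm q, dist_comm q]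
  exact abs_dist_sub_le _ _ _

lemma MG.cont {c : ℝ → X} {a b : ℝ} (hc : MG c a b) (q : X) :
    ContinuousOn (fun s => dist q (c s)) (Icc a b) := by
  have : LipschitzOnWith 1 (fun s => dist q (c s)) (Icc a b) := by
    refine LipschitzOnWith.of_dist_le_mul ?_
    intro s hs t ht
    rw [Real.dist_eq, Real.dist_eq, NNReal.coe_one, one_mul]
    exact hc.lip hs ht
  exact this.continuousOn

/-- the local computation at a minimum -/
lemma core {k κ l α C h : ℝ} {fp fm : ℝ → ℝ} (hk : 0 < k) (hκ : k = 2 * κ) (hl : 0 < l)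
    (hkl : k * l ≤ 1) (hα : |α| ≤ 1) (hh : 0 ≤ h)
    (h1 : ∀ᶠ r in 𝓝[>] (0 : ℝ), |fp r| ≤ r) (h2 : ∀ᶠ r in 𝓝[>] (0 : ℝ), |fm r| ≤ r)
    (h3 : ∀ η > 0, ∀ᶠ r in 𝓝[>] (0 : ℝ), fp r + fm r ≤
      r ^ 2 * ((1 / l + κ ^ 2 * l) * (1 - α ^ 2) + η))
    (h4 : ∀ᶠ r in 𝓝[>] (0 : ℝ), fp r ≤ r * α + C * r ^ 2)
    (h5 : ∀ᶠ r in 𝓝[>] (0 : ℝ), fm r ≤ - (r * α) + C * r ^ 2)
    (h6 : ∀ᶠ r in 𝓝[>] (0 : ℝ), 2 * (cosh (k * r) - 1) * h ≤
      cosh (k * l) * ((cosh (k * fp r) - 1) + (cosh (k * fm r) - 1)) +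
        sinh (k * l) * (sinh (k * fp r) + sinh (k * fm r))) :
    h ≤ cosh (k * l) := by
  have hS : 0 < sinh (k * l) := sinh_pos_iff.2 (mul_pos hk hl)
  have hCh : 0 < cosh (k * l) := cosh_pos _
  have hr1 : ∀ᶠ r in 𝓝[>] (0 : ℝ), 0 < r := eventually_mem_nhdsWithin
  have hr2 : ∀ᶠ r in 𝓝[>] (0 : ℝ), k * r < 1 := by
    have : Tendsto (fun r : ℝ => k * r) (𝓝[>] 0) (𝓝 (k * 0)) :=
      (Continuous.tendsto (by fun_prop) 0).mono_left nhdsWithin_le_nhds
    rw [mul_zero] at this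
    exact this.eventually (gt_mem_nhds zero_lt_one)
  obtain ⟨Λ, hΛ⟩ : ∃ Λ : ℝ, Λ = cosh 1 := ⟨_, rfl⟩
  have hΛ1 : 1 ≤ Λ := hΛ ▸ one_le_cosh 1
  -- bounds for the functions
  have bc : ∀ r, 0 < r → k * r < 1 → ∀ x, |x| ≤ r → cosh (k * x) - 1 ≤
      (k * x) ^ 2 / 2 * cosh (k * r) := by
    intro r hr hkr x hx
    refine (cosh_sub_one_le _).trans ?_
    refine mul_le_mul_of_nonneg_left ?_ (by positivity)
    refine cosh_le_cosh.2 ?_
    rw [abs_mul, abs_mul, abs_of_pos hk, abs_of_pos hr]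
    exact mul_le_mul_of_nonneg_left hx hk.le
  have bs : ∀ r, 0 < r → k * r < 1 → ∀ x, |x| ≤ r → sinh (k * x) ≤
      k * x + (k * r) * ((k * r) ^ 2 / 2 * cosh (k * r)) := by
    intro r hr hkr x hx
    have := sinh_sub_le (x := k * x) (R := k * r) (by
      rw [abs_mul, abs_of_pos hk]; exact mul_le_mul_of_nonneg_left hx hk.le)
    have := (abs_le.1 this).2
    linarith
  have ch1 : ∀ r, 0 < r → k * r < 1 → cosh (k * r) ≤ Λ := by
    intro r hr hkr
    rw [hΛ]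
    refine cosh_le_cosh.2 ?_
    rw [abs_of_pos (mul_pos hk hr), abs_one]; exact hkr.le
  -- lower bound for the sum
  obtain ⟨K, hK⟩ : ∃ K : ℝ, K = (cosh (k * l) / sinh (k * l) * Λ + Λ) * k := ⟨_, rfl⟩
  have hK0 : 0 ≤ K := by rw [hK]; positivity
  have h7 : ∀ᶠ r in 𝓝[>] (0 : ℝ), - (K * r ^ 2) ≤ fp r + fm r := by
    filter_upwards [h1, h2, h6, hr1, hr2] with r a1 a2 a6 ar1 ar2
    have e1 := bc r ar1 ar2 _ a1
    have e2 := bc r ar1 ar2 _ a2
    have e3 := bs r ar1 ar2 _ a1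
    have e4 := bs r ar1 ar2 _ a2
    have e5 := ch1 r ar1 ar2
    have q1 : (fp r) ^ 2 ≤ r ^ 2 := by
      have := pow_le_pow_left₀ (abs_nonneg (fp r)) a1 2
      rwa [sq_abs] at this
    have q2 : (fm r) ^ 2 ≤ r ^ 2 := by
      have := pow_le_pow_left₀ (abs_nonneg (fm r)) a2 2
      rwa [sq_abs] at this
    have hch : 0 < cosh (k * r) := cosh_pos _
    have e6 : 0 ≤ 2 * (cosh (k * r) - 1) * h :=
      mul_nonneg (mul_nonneg zero_le_two (by linarith [one_le_cosh (k * r)])) hh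
    have e7 : (k * fp r) ^ 2 / 2 * cosh (k * r) ≤ k ^ 2 * r ^ 2 / 2 * Λ := by
      rw [mul_pow]
      exact mul_le_mul (by nlinarith [sq_nonneg k]) e5 hch.le (by positivity)
    have e8 : (k * fm r) ^ 2 / 2 * cosh (k * r) ≤ k ^ 2 * r ^ 2 / 2 * Λ := by
      rw [mul_pow]
      exact mul_le_mul (by nlinarith [sq_nonneg k]) e5 hch.le (by positivity)
    have e9 : (k * r) * ((k * r) ^ 2 / 2 * cosh (k * r)) ≤ k ^ 2 * r ^ 2 / 2 * Λ := by
      have : (k * r) ^ 2 / 2 * cosh (k * r) ≤ k ^ 2 * r ^ 2 / 2 * Λ := by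
        rw [mul_pow]; exact mul_le_mul_of_nonneg_left e5 (by positivity)
      have h0 : 0 ≤ (k * r) ^ 2 / 2 * cosh (k * r) := by positivity
      nlinarith
    have e10 : 0 ≤ cosh (k * l) * (k ^ 2 * r ^ 2 * Λ) +
        sinh (k * l) * (k * (fp r + fm r) + k ^ 2 * r ^ 2 * Λ) := by
      refine e6.trans (a6.trans (add_le_add ?_ ?_))
      · exact mul_le_mul_of_nonneg_left (by linarith) hCh.le
      · exact mul_le_mul_of_nonneg_left (by linarith) hS.le
    have e11 : - (K * r ^ 2) * (sinh (k * l) * k) ≤ (fp r + fm r) * (sinh (k * l) * k) := by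
      have : K * r ^ 2 * (sinh (k * l) * k) =
          cosh (k * l) * (k ^ 2 * r ^ 2 * Λ) + sinh (k * l) * (k ^ 2 * r ^ 2 * Λ) := by
        rw [hK]; field_simp
      linarith
    exact le_of_mul_le_mul_right e11 (mul_pos hS hk)
  -- two sided bounds
  obtain ⟨M, hM⟩ : ∃ M : ℝ, M = |C| + K := ⟨_, rfl⟩
  have hM0 : 0 ≤ M := by rw [hM]; positivity
  have h8 : ∀ᶠ r in 𝓝[>] (0 : ℝ), |fp r| ≤ r * (|α| + M * r) := by
    filter_upwards [h4, h5, h7, hr1] with r a4 a5 a7 ar1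
    have c1 : C * r ^ 2 ≤ |C| * r ^ 2 := mul_le_mul_of_nonneg_right (le_abs_self C) (sq_nonneg r)
    have c2 : 0 ≤ K * r ^ 2 := by positivity
    have c3 : r * α ≤ r * |α| := mul_le_mul_of_nonneg_left (le_abs_self α) ar1.le
    have c4 : - (r * α) ≤ r * |α| := by
      have := mul_le_mul_of_nonneg_left (neg_le_abs α) ar1.le
      linarith
    have e : r * (|α| + M * r) = r * |α| + |C| * r ^ 2 + K * r ^ 2 := by rw [hM]; ring
    rw [abs_le, e]
    constructor <;> linarith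
  have h9 : ∀ᶠ r in 𝓝[>] (0 : ℝ), |fm r| ≤ r * (|α| + M * r) := by
    filter_upwards [h4, h5, h7, hr1] with r a4 a5 a7 ar1
    have c1 : C * r ^ 2 ≤ |C| * r ^ 2 := mul_le_mul_of_nonneg_right (le_abs_self C) (sq_nonneg r)
    have c2 : 0 ≤ K * r ^ 2 := by positivity
    have c3 : r * α ≤ r * |α| := mul_le_mul_of_nonneg_left (le_abs_self α) ar1.le
    have c4 : - (r * α) ≤ r * |α| := by
      have := mul_le_mul_of_nonneg_left (neg_le_abs α) ar1.le
      linarith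
    have e : r * (|α| + M * r) = r * |α| + |C| * r ^ 2 + K * r ^ 2 := by rw [hM]; ring
    rw [abs_le, e]
    constructor <;> linarith
  -- the main inequality
  obtain ⟨B, hB⟩ : ∃ B : ℝ, B = (1 / l + κ ^ 2 * l) * (1 - α ^ 2) := ⟨_, rfl⟩
  have h10 : ∀ η > 0, h ≤ cosh (k * l) * α ^ 2 + sinh (k * l) / k * (B + η) := by
    intro η hη
    have hF : ∀ᶠ r in 𝓝[>] (0 : ℝ), h ≤ cosh (k * l) * ((|α| + M * r) ^ 2 * cosh (k * r)) +
        sinh (k * l) / k * (B + η + k ^ 2 * r * cosh (k * r)) := by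
      filter_upwards [h1, h2, h3 η hη, h6, h8, h9, hr1, hr2] with r a1 a2 a3 a6 a8 a9 ar1 ar2
      have e1 := bc r ar1 ar2 _ a1
      have e2 := bc r ar1 ar2 _ a2
      have e3 := bs r ar1 ar2 _ a1
      have e4 := bs r ar1 ar2 _ a2
      have hch : 0 < cosh (k * r) := cosh_pos _
      have q1 : (fp r) ^ 2 ≤ r ^ 2 * (|α| + M * r) ^ 2 := by
        have := pow_le_pow_left₀ (abs_nonneg (fp r)) a8 2
        rwa [sq_abs, mul_pow] at this
      have q2 : (fm r) ^ 2 ≤ r ^ 2 * (|α| + M * r) ^ 2 := by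
        have := pow_le_pow_left₀ (abs_nonneg (fm r)) a9 2
        rwa [sq_abs, mul_pow] at this
      have e5 : (k * r) ^ 2 / 2 ≤ cosh (k * r) - 1 := half_sq_le _
      have e6 : (k * r) ^ 2 * h ≤ 2 * (cosh (k * r) - 1) * h :=
        mul_le_mul_of_nonneg_right (by linarith) hh
      have e7 : (k * fp r) ^ 2 / 2 * cosh (k * r) ≤
          k ^ 2 * (r ^ 2 * (|α| + M * r) ^ 2) / 2 * cosh (k * r) := by
        refine mul_le_mul_of_nonneg_right ?_ hch.le
        rw [mul_pow]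
        have := mul_le_mul_of_nonneg_left q1 (sq_nonneg k)
        linarith
      have e8 : (k * fm r) ^ 2 / 2 * cosh (k * r) ≤
          k ^ 2 * (r ^ 2 * (|α| + M * r) ^ 2) / 2 * cosh (k * r) := by
        refine mul_le_mul_of_nonneg_right ?_ hch.le
        rw [mul_pow]
        have := mul_le_mul_of_nonneg_left q2 (sq_nonneg k)
        linarith
      have e9 : k * (fp r + fm r) ≤ k * (r ^ 2 * (B + η)) := by
        rw [hB]; exact mul_le_mul_of_nonneg_left a3 hk.le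
      have e10 : (k * r) ^ 2 * h ≤
          cosh (k * l) * (k ^ 2 * (r ^ 2 * (|α| + M * r) ^ 2) * cosh (k * r)) +
          sinh (k * l) * (k * (r ^ 2 * (B + η)) +
            2 * ((k * r) * ((k * r) ^ 2 / 2 * cosh (k * r)))) := by
        refine e6.trans (a6.trans (add_le_add ?_ ?_))
        · exact mul_le_mul_of_nonneg_left (by linarith) hCh.le
        · exact mul_le_mul_of_nonneg_left (by linarith) hS.le
      have e11 : (k * r) ^ 2 * (cosh (k * l) * ((|α| + M * r) ^ 2 * cosh (k * r)) +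
        sinh (k * l) / k * (B + η + k ^ 2 * r * cosh (k * r))) =
          cosh (k * l) * (k ^ 2 * (r ^ 2 * (|α| + M * r) ^ 2) * cosh (k * r)) +
          sinh (k * l) * (k * (r ^ 2 * (B + η)) +
            2 * ((k * r) * ((k * r) ^ 2 / 2 * cosh (k * r)))) := by
        field_simp
      rw [← e11] at e10
      exact le_of_mul_le_mul_left e10 (by positivity)
    have hlim : Tendsto (fun r : ℝ => cosh (k * l) * ((|α| + M * r) ^ 2 * cosh (k * r)) +
        sinh (k * l) / k * (B + η + k ^ 2 * r * cosh (k * r))) (𝓝[>] 0)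
        (𝓝 (cosh (k * l) * ((|α| + M * 0) ^ 2 * cosh (k * 0)) +
        sinh (k * l) / k * (B + η + k ^ 2 * 0 * cosh (k * 0)))) :=
      (Continuous.tendsto (by fun_prop) 0).mono_left nhdsWithin_le_nhds
    have := ge_of_tendsto hlim hF
    simpa [sq_abs] using this
  have h11 : h ≤ cosh (k * l) * α ^ 2 + sinh (k * l) / k * B := by
    refine le_of_forall_pos_le_add ?_
    intro ε hε
    have := h10 (ε / (sinh (k * l) / k)) (by positivity)
    refine this.trans (le_of_eq ?_)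
    field_simp
    ring
  refine h11.trans ?_
  have hα2 : α ^ 2 ≤ 1 := by
    have := pow_le_pow_left₀ (abs_nonneg α) hα 2
    rwa [sq_abs, one_pow] at this
  have h12 : sinh (k * l) / k * (1 / l + κ ^ 2 * l) ≤ cosh (k * l) := by
    have := key_hyp (mul_pos hk hl).le hkl
    have e : sinh (k * l) / k * (1 / l + κ ^ 2 * l) =
        ((1 + (k * l) ^ 2 / 4) * sinh (k * l)) / (k * l) := by
      have : κ = k / 2 := by rw [hκ]; ring
      rw [this]; field_simp; ring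
    rw [e, div_le_iff₀ (mul_pos hk hl)]
    linarith
  rw [hB]
  have : sinh (k * l) / k * ((1 / l + κ ^ 2 * l) * (1 - α ^ 2)) ≤
      cosh (k * l) * (1 - α ^ 2) := by
    rw [← mul_assoc]
    exact mul_le_mul_of_nonneg_right h12 (by linarith)
  linarith

theorem lemA {κ : ℝ} (hκ : 0 < κ) (hX : H2 X κ) {q : X} {c : ℝ → X} {b : ℝ} (hc : MG c 0 b)
    {k : ℝ} (hk : k = 2 * κ) (hq : ∀ s ∈ Icc 0 b, k * dist q (c s) ≤ 1) {A B : ℝ}
    (h0 : A ≤ cosh (k * dist q (c 0)))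
    (hb : A * cosh (k * b) + B * sinh (k * b) ≤ cosh (k * dist q (c b))) :
    ∀ s ∈ Icc 0 b, A * cosh (k * s) + B * sinh (k * s) ≤ cosh (k * dist q (c s)) := by
  intro s hs
  have hk0 : 0 < k := by rw [hk]; positivity
  have hb0 : 0 ≤ b := hs.1.trans hs.2
  obtain ⟨u, hu⟩ : ∃ u : ℝ → ℝ, u = fun s =>
    cosh (k * dist q (c s)) - (A * cosh (k * s) + B * sinh (k * s)) := ⟨_, rfl⟩
  have hu' : ∀ s, u s = cosh (k * dist q (c s)) - (A * cosh (k * s) + B * sinh (k * s)) := by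
    intro s; rw [hu]
  have hcont : ContinuousOn u (Icc 0 b) := by
    rw [hu]
    refine ContinuousOn.sub ?_ (by fun_prop)
    exact continuous_cosh.comp_continuousOn (continuousOn_const.mul (hc.cont q))
  obtain ⟨s₀, hs₀, hmin⟩ := isCompact_Icc.exists_isMinOn (nonempty_Icc.2 hb0) hcont
  have hmin' : ∀ t ∈ Icc 0 b, u s₀ ≤ u t := fun t ht => hmin ht
  suffices h : 0 ≤ u s₀ by
    have h1 := hmin' s hs
    rw [hu' s] at h1
    linarith
  by_contra hneg
  rw [not_le] at hneg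
  have hs1 : s₀ ≠ 0 := by
    intro e
    rw [hu', e, mul_zero, cosh_zero, sinh_zero] at hneg
    linarith
  have hs2 : s₀ ≠ b := by
    intro e
    rw [hu', e] at hneg
    linarith
  have hs3 : s₀ ∈ Ioo 0 b := ⟨lt_of_le_of_ne hs₀.1 (Ne.symm hs1), lt_of_le_of_ne hs₀.2 hs2⟩
  obtain ⟨h, hh⟩ : ∃ h : ℝ, h = A * cosh (k * s₀) + B * sinh (k * s₀) := ⟨_, rfl⟩
  have hsum : ∀ r, (A * cosh (k * (s₀ + r)) + B * sinh (k * (s₀ + r))) +
      (A * cosh (k * (s₀ - r)) + B * sinh (k * (s₀ - r))) = 2 * cosh (k * r) * h := by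
    intro r
    rw [mul_add, mul_sub, cosh_add, cosh_sub, sinh_add, sinh_sub, hh]; ring
  have hev1 : ∀ᶠ r in 𝓝 (0:ℝ), s₀ + r ∈ Icc 0 b := by
    have : Tendsto (fun r : ℝ => s₀ + r) (𝓝 0) (𝓝 (s₀ + 0)) := Continuous.tendsto (by fun_prop) 0
    rw [add_zero] at this
    exact this.eventually (Icc_mem_nhds hs3.1 hs3.2)
  have hev2 : ∀ᶠ r in 𝓝 (0:ℝ), s₀ - r ∈ Icc 0 b := by
    have : Tendsto (fun r : ℝ => s₀ - r) (𝓝 0) (𝓝 (s₀ - 0)) := Continuous.tendsto (by fun_prop) 0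
    rw [sub_zero] at this
    exact this.eventually (Icc_mem_nhds hs3.1 hs3.2)
  have hr1 : ∀ᶠ r in 𝓝[>] (0 : ℝ), 0 < r := eventually_mem_nhdsWithin
  have hle : 𝓝[>] (0 : ℝ) ≤ 𝓝 0 := nhdsWithin_le_nhds
  have hev1' : ∀ᶠ r in 𝓝[>] (0 : ℝ), s₀ + r ∈ Icc 0 b := hle hev1
  have hev2' : ∀ᶠ r in 𝓝[>] (0 : ℝ), s₀ - r ∈ Icc 0 b := hle hev2
  have hmin2 : ∀ᶠ r in 𝓝[>] (0 : ℝ), 2 * (cosh (k * r) - 1) * h ≤
      cosh (k * dist q (c (s₀ + r))) + cosh (k * dist q (c (s₀ - r)))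
        - 2 * cosh (k * dist q (c s₀)) := by
    filter_upwards [hev1', hev2'] with r h1 h2
    have e1 := hmin' _ h1
    have e2 := hmin' _ h2
    rw [hu', hu', ← hh] at e1 e2
    have := hsum r
    linarith
  by_cases hqc : q = c s₀
  · obtain ⟨r, h1, h2, h3, h4⟩ := (hmin2.and (hev1'.and (hev2'.and hr1))).exists
    have e1 : dist q (c (s₀ + r)) = r := by
      rw [hqc, hc _ hs₀ _ h2, show s₀ - (s₀ + r) = -r by ring, abs_neg, abs_of_pos h4]
    have e2 : dist q (c (s₀ - r)) = r := by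
      rw [hqc, hc _ hs₀ _ h3, show s₀ - (s₀ - r) = r by ring, abs_of_pos h4]
    have e3 : dist q (c s₀) = 0 := by rw [hqc, dist_self]
    rw [e1, e2, e3, mul_zero, cosh_zero] at h1
    rw [hu', e3, mul_zero, cosh_zero, ← hh] at hneg
    have h5 : 1 < cosh (k * r) := one_lt_cosh.2 (mul_pos hk0 h4).ne'
    nlinarith
  · obtain ⟨α, hα, hH, C, hC⟩ := hX q c 0 b s₀ hc hs3 hqc
    have hl : 0 < dist q (c s₀) := dist_pos.2 hqc
    have hgt : cosh (k * dist q (c s₀)) < h := by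
      rw [hu', ← hh] at hneg; linarith
    have hCC : ∀ᶠ r in 𝓝 (0 : ℝ), dist q (c (s₀ - r)) ≤ dist q (c s₀) + (-r) * α + C * (-r) ^ 2 := by
      have : Tendsto (fun r : ℝ => -r) (𝓝 0) (𝓝 (-0)) := Continuous.tendsto (by fun_prop) 0
      rw [neg_zero] at this
      filter_upwards [this.eventually hC] with r hr
      rwa [← sub_eq_add_neg] at hr
    have := core (k := k) (κ := κ) (l := dist q (c s₀)) (α := α) (C := C) (h := h)
      (fp := fun r => dist q (c (s₀ + r)) - dist q (c s₀))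
      (fm := fun r => dist q (c (s₀ - r)) - dist q (c s₀)) hk0 hk hl (hq _ hs₀) hα
      ((cosh_pos _).le.trans hgt.le) ?_ ?_ ?_ ?_ ?_ ?_
    · linarith
    · filter_upwards [hle hev1, hr1] with r h1 h2
      refine (hc.lip h1 hs₀).trans ?_
      rw [show s₀ + r - s₀ = r by ring, abs_of_pos h2]
    · filter_upwards [hle hev2, hr1] with r h1 h2
      refine (hc.lip h1 hs₀).trans ?_
      rw [show s₀ - r - s₀ = -r by ring, abs_neg, abs_of_pos h2]
    · intro η hη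
      filter_upwards [hH η hη] with r h1
      linarith
    · filter_upwards [hle hC] with r h1
      linarith
    · filter_upwards [hle hCC] with r h1
      rw [neg_sq] at h1
      linarith
    · filter_upwards [hmin2] with r h1
      refine h1.trans (le_of_eq ?_)
      have e1 : k * dist q (c (s₀ + r)) = k * dist q (c s₀) +
          k * (dist q (c (s₀ + r)) - dist q (c s₀)) := by ring
      have e2 : k * dist q (c (s₀ - r)) = k * dist q (c s₀) +
          k * (dist q (c (s₀ - r)) - dist q (c s₀)) := by ring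
      rw [e1, e2, cosh_add, cosh_add]
      ring

end

end Vale.Agent.P210.R2.H401
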