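import Vale.Agent.P210.R2.H401.CSpec

open Set Metric
open Vale.Agent.P210.R2.H53 (HCge)

noncomputable section

namespace Vale.Agent.P210.R2.H401

theorem hc_mono {X : Type} [MetricSpace X] {n : ℕ} {ρ ρ' a a' : ℝ} {A A' : Set X}
    (h : HCge n ρ A a) (hρ : ρ ≤ ρ') (hA : A ⊆ A') (ha : a' ≤ a) : HCge n ρ' A' a' := by
  intro S hS hc
  exact ha.trans (h S (fun c hcS => hρ.trans (hS c hcS)) (hA.trans hc))

theorem hc_union {X : Type} [MetricSpace X] {n : ℕ} {ρ a b : ℝ} {A B C : Set X} (hρ : 0 < ρ)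
    (h : HCge n ρ C (a + b)) (hC : C ⊆ A ∪ B) : HCge n ρ A a ∨ HCge n ρ B b := by
  classical
  by_contra hne
  push Not at hne
  obtain ⟨h1, h2⟩ := hne
  unfold HCge at h1 h2
  push Not at h1 h2
  obtain ⟨S, hS, hSc, hSs⟩ := h1
  obtain ⟨T, hT, hTc, hTs⟩ := h2
  have h3 := h (S ∪ T) (fun c hc => (Finset.mem_union.1 hc).elim (hS c) (hT c)) (by
    refine hC.trans (union_subset ?_ ?_)
    · refine hSc.trans (biUnion_subset_biUnion_left fun c hc => ?_)
      simpa using Or.inl hc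
    · refine hTc.trans (biUnion_subset_biUnion_left fun c hc => ?_)
      simpa using Or.inr hc)
  have h4 : ∑ c ∈ S ∪ T, c.2 ^ (n - 1) ≤ ∑ c ∈ S, c.2 ^ (n - 1) + ∑ c ∈ T, c.2 ^ (n - 1) := by
    rw [← Finset.sum_union_inter]
    have : 0 ≤ ∑ c ∈ S ∩ T, c.2 ^ (n - 1) := Finset.sum_nonneg fun c hc =>
      pow_nonneg (hρ.le.trans (hS c (Finset.mem_inter.1 hc).1)) _
    linarith
  linarith

theorem vol_le {n b : ℕ} {S : Sp} (hA : Ax n S) {y z : S.X} {τ t : ℝ} (hτ : 0 < τ)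
    (hzy : dist z y ≤ 2 * τ) (h1 : τ / 2 ^ b ≤ t) (h2 : t ≤ τ) (hK : S.K * (2 * τ) ^ 2 ≤ 1) :
    S.V y (2 * τ) ≤ Real.exp 4 * (2 ^ (b + 1)) ^ n * S.V z (2 * t) := by
  have hb : (0 : ℝ) < 2 ^ b := by positivity
  have ht : 0 < t := lt_of_lt_of_le (by positivity) h1
  have e1 := hA.sub y z (2 * τ) (4 * τ) (by rw [dist_comm]; linarith)
  have e2 := hA.bg z (2 * t) (4 * τ) (by linarith) (by linarith)
  have e3 : Real.exp (S.K * (4 * τ) ^ 2) ≤ Real.exp 4 := by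
    apply Real.exp_le_exp.2; nlinarith
  have e4 : (4 * τ / (2 * t)) ^ n ≤ (2 ^ (b + 1)) ^ n := by
    apply pow_le_pow_left₀ (by positivity)
    rw [div_le_iff₀ (by linarith), pow_succ]
    rw [div_le_iff₀ hb] at h1
    nlinarith
  have hV := hA.pos z (2 * t) (by linarith)
  calc S.V y (2 * τ) ≤ S.V z (4 * τ) := e1
    _ ≤ (4 * τ / (2 * t)) ^ n * Real.exp (S.K * (4 * τ) ^ 2) * S.V z (2 * t) := e2
    _ ≤ (2 ^ (b + 1)) ^ n * Real.exp 4 * S.V z (2 * t) := by gcongr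
    _ = _ := by ring

theorem pl_restr {n b : ℕ} {S : Sp} (hA : Ax n S) {η η' : ℝ} (hη : 0 < η) (hη1 : η ≤ 1 / 2)
    (hηη : η * (Real.exp 4 * (2 ^ (b + 1)) ^ n) ≤ η') {p y z : S.X} {τ t : ℝ} (hτ : 0 < τ)
    (hzy : dist z y ≤ 2 * τ) (h1 : τ / 2 ^ b ≤ t) (h2 : t ≤ τ / 4) (hK : S.K * (2 * τ) ^ 2 ≤ 1)
    (h : PL S η p y (2 * τ)) : PL S η' p z (2 * t) := by
  have hb : (0 : ℝ) < 2 ^ b := by positivity
  have ht : 0 < t := lt_of_lt_of_le (by positivity) h1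
  have hv := vol_le hA hτ hzy h1 (by linarith) hK
  have hE : 1 ≤ Real.exp 4 * (2 ^ (b + 1)) ^ n :=
    one_le_mul_of_one_le_of_one_le (Real.one_le_exp (by norm_num))
      (one_le_pow₀ (one_le_pow₀ (by norm_num)))
  have hle : η ≤ η' := le_trans (by nlinarith) hηη
  obtain ⟨ha, hb', hc⟩ := h
  have hd : dist p y ≤ dist p z + 2 * τ := (dist_triangle _ _ _).trans (by linarith)
  have hd' : dist p z ≤ dist p y + 2 * τ :=
    (dist_triangle _ y _).trans (by rw [dist_comm y z]; linarith)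
  have hdy : 4 * τ ≤ dist p y := by nlinarith [dist_nonneg (x := p) (y := y)]
  have hKp := hA.Kpos
  refine ⟨?_, ?_, ?_⟩
  · have : η * dist p y ≤ η' * (2 * dist p z) := by
      apply mul_le_mul hle _ dist_nonneg (hη.le.trans hle); linarith
    nlinarith
  · have e1 : S.K * (2 * t) * dist p z ≤ S.K * (2 * t) * (2 * dist p y) := by
      apply mul_le_mul_of_nonneg_left _ (by positivity); linarith
    have e2 : S.K * (2 * t) * (2 * dist p y) ≤ S.K * (2 * τ) * dist p y := by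
      have : 0 ≤ S.K * dist p y := by positivity
      nlinarith
    linarith
  · refine hA.lm p y z _ _ _ _ ?_ ?_ hc
    · linarith
    · have hV := hA.pos z (2 * t) (by linarith)
      have e1 : η * S.V y (2 * τ) ≤ η' * S.V z (2 * t) := by
        calc η * S.V y (2 * τ) ≤ η * (Real.exp 4 * (2 ^ (b + 1)) ^ n * S.V z (2 * t)) := by
              gcongr
          _ = (η * (Real.exp 4 * (2 ^ (b + 1)) ^ n)) * S.V z (2 * t) := by ring
          _ ≤ _ := by gcongr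
      have e0 : 0 ≤ η * S.V y (2 * τ) := mul_nonneg hη.le (hA.pos y _ (by linarith)).le
      rw [div_le_div_iff₀ (by linarith) (by linarith)]
      nlinarith

theorem gn_restr {n b : ℕ} {S : Sp} (hA : Ax n S) {η η' : ℝ} (hη : 0 < η)
    (hηη : η * (Real.exp 4 * (2 ^ (b + 1)) ^ n) ≤ η') {p p' y z : S.X} {τ t σ : ℝ} (hτ : 0 < τ)
    (hzy : dist z y ≤ 2 * τ) (h1 : τ / 2 ^ b ≤ t) (h2 : t ≤ τ / 4) (hK : S.K * (2 * τ) ^ 2 ≤ 1)
    (h : S.GN p p' y (8 * τ) σ (η * S.V y (2 * τ))) :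
    S.GN p p' z (8 * t) σ (η' * S.V z (2 * t)) := by
  have hb : (0 : ℝ) < 2 ^ b := by positivity
  have ht : 0 < t := lt_of_lt_of_le (by positivity) h1
  have hv := vol_le hA hτ hzy h1 (by linarith) hK
  have hV := hA.pos z (2 * t) (by linarith)
  refine hA.gn p p' y z _ _ _ _ _ (by linarith) ?_ h
  calc η * S.V y (2 * τ) ≤ η * (Real.exp 4 * (2 ^ (b + 1)) ^ n * S.V z (2 * t)) := by
        gcongr
    _ = (η * (Real.exp 4 * (2 ^ (b + 1)) ^ n)) * S.V z (2 * t) := by ring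
    _ ≤ _ := by gcongr

/-- the new state -/
theorem new_st {n j b b' : ℕ} {S : Sp} (hA : Ax n S) {η η' ηS cS : ℝ} (hη : 0 < η)
    (hη1 : η ≤ 1 / 2) (hηη : η * (Real.exp 4 * (2 ^ (b + 1)) ^ n) ≤ η') (hηS : η ≤ ηS)
    (hslope : ∀ (p y x z : S.X) (r s : ℝ), 0 < r → S.K * r ^ 2 ≤ ηS → PL S ηS p y r →
      dist x y ≤ r → dist z y ≤ r → (1 / 2) ^ b * r ≤ s → s ≤ cS * dist x z →
      S.GN p x z (4 * s) ((dist p z - dist p x) / dist x z) (η' * S.V z s))
    {y x w : S.X} {τ t : ℝ} {A' : Set S.X} {p : Fin j → S.X} (hτ : 0 < τ)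
    (hK : S.K * (2 * τ) ^ 2 ≤ η) (hPL : ∀ i, PL S η (p i) y (2 * τ))
    (hGN : ∀ i k, i < k → ∃ σ : ℝ, |σ| ≤ 1 / (16 * n) ∧
      S.GN (p i) (p k) y (8 * τ) σ (η * S.V y (2 * τ)))
    (hxy : dist x y ≤ 2 * τ) (hwy : dist w y ≤ 2 * τ) (h1 : τ / 2 ^ b ≤ t) (h2 : t ≤ τ / 4)
    (hx : PL S η' x w (2 * t)) (hxw : 0 < dist x w) (hcS : 2 * t ≤ cS * dist x w)
    (hsl : ∀ i, |dist (p i) w - dist (p i) x| ≤ 1 / (16 * n) * dist x w)
    (hA' : A' ⊆ closedBall w (2 * t)) (hHC : HCge n (t / 2 ^ b') A' (t ^ (n - 1) / 2 ^ n))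
    (hbt : 2 ^ b' ≤ t) : St n (j + 1) b' η' S := by
  have hE : 1 ≤ Real.exp 4 * (2 ^ (b + 1)) ^ n :=
    one_le_mul_of_one_le_of_one_le (Real.one_le_exp (by norm_num))
      (one_le_pow₀ (one_le_pow₀ (by norm_num)))
  have hle : η ≤ η' := le_trans (by nlinarith) hηη
  have hb : (0 : ℝ) < 2 ^ b := by positivity
  have ht : 0 < t := lt_of_lt_of_le (by positivity) h1
  have hK1 : S.K * (2 * τ) ^ 2 ≤ 1 := by linarith
  have hKp := hA.Kpos
  have hKt : S.K * (2 * t) ^ 2 ≤ η' := by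
    have : S.K * (2 * t) ^ 2 ≤ S.K * (2 * τ) ^ 2 := by gcongr; linarith
    linarith
  have hnew : ∀ i, ∃ σ : ℝ, |σ| ≤ 1 / (16 * n) ∧
      S.GN (p i) x w (8 * t) σ (η' * S.V w (2 * t)) := by
    intro i
    have hp : PL S ηS (p i) y (2 * τ) := by
      obtain ⟨a1, a2, a3⟩ := hPL i
      refine ⟨a1.trans (by gcongr), a2.trans hηS, hA.lm _ _ _ _ _ _ _ (by simp) ?_ a3⟩
      have hV := hA.pos y (2 * τ) (by linarith)
      gcongr
    refine ⟨(dist (p i) w - dist (p i) x) / dist x w, ?_, ?_⟩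
    · rw [abs_div, abs_of_pos hxw, div_le_iff₀ hxw]; exact hsl i
    · have := hslope (p i) y x w (2 * τ) (2 * t) (by linarith) (by linarith) hp hxy hwy (by
        rw [div_le_iff₀ hb] at h1
        rw [one_div, inv_pow, inv_mul_le_iff₀ hb]; linarith) hcS
      rwa [show 4 * (2 * t) = 8 * t by ring] at this
  refine ⟨w, t, A', Fin.snoc p x, hbt, hKt, hA', hHC, ?_, ?_⟩
  · intro i
    refine Fin.lastCases ?_ (fun i => ?_) i
    · simpa using hx
    · simpa using pl_restr hA hη hη1 hηη hτ hwy h1 h2 hK1 (hPL i)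
  · intro i k hik
    revert hik
    refine Fin.lastCases ?_ (fun k => ?_) k
    · refine Fin.lastCases ?_ (fun i => ?_) i
      · intro h; exact absurd h (lt_irrefl _)
      · intro _; simpa using hnew i
    · refine Fin.lastCases ?_ (fun i => ?_) i
      · intro h
        exact absurd h (not_lt.2 (Fin.le_last _))
      · intro h
        obtain ⟨σ, hσ, hg⟩ := hGN i k (by simpa using h)
        exact ⟨σ, hσ, by simpa using gn_restr hA hη hηη hτ hwy h1 h2 hK1 hg⟩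

theorem far {X : Type} [MetricSpace X] {n : ℕ} (hn : 2 ≤ n) {g t : ℝ} (hg : 0 < g)
    (ht : 0 < t) {x z z₀ : X} (h1 : g * t ≤ dist x z₀) (h2 : dist z z₀ ≤ g / (64 * n) * t) :
    g * t / 2 ≤ dist x z := by
  have hn' : (2 : ℝ) ≤ n := by exact_mod_cast hn
  have hn0 : (0 : ℝ) < n := by linarith
  set u : ℝ := 1 / (64 * n) with hu
  have hu1 : u ≤ 1 / 128 := by
    rw [hu]; apply one_div_le_one_div_of_le (by norm_num); linarith
  have e1 : g / (64 * n) * t = u * (g * t) := by rw [hu]; ring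
  rw [e1] at h2
  have hgt : 0 < g * t := by positivity
  have h5 : dist x z₀ ≤ dist x z + dist z z₀ := dist_triangle _ _ _
  nlinarith

theorem slope_small {X : Type} [MetricSpace X] {n : ℕ} (hn : 2 ≤ n) {g t : ℝ} (hg : 0 < g)
    (ht : 0 < t) {x z z₀ q : X} (h1 : g * t ≤ dist x z₀) (h2 : dist z z₀ ≤ g / (64 * n) * t)
    (h3 : |dist q x - dist q z₀| ≤ 1 / (64 * n) * dist x z₀) :
    |dist q z - dist q x| ≤ 1 / (16 * n) * dist x z := by
  have hn' : (2 : ℝ) ≤ n := by exact_mod_cast hn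
  have hn0 : (0 : ℝ) < n := by linarith
  set u : ℝ := 1 / (64 * n) with hu
  have hu0 : 0 < u := by positivity
  have hu1 : u ≤ 1 / 128 := by
    rw [hu]; apply one_div_le_one_div_of_le (by norm_num); linarith
  have e1 : g / (64 * n) * t = u * (g * t) := by rw [hu]; ring
  have e2 : 1 / (16 * (n : ℝ)) = 4 * u := by rw [hu]; field_simp; norm_num
  rw [e1] at h2
  rw [e2]
  have hgt : 0 < g * t := by positivity
  have h4 : dist z z₀ ≤ u * dist x z₀ := h2.trans (by gcongr)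
  have h5 : dist x z₀ ≤ dist x z + dist z z₀ := dist_triangle _ _ _
  have h6 : |dist q z - dist q z₀| ≤ dist z z₀ := by
    rw [dist_comm q z, dist_comm q z₀]; exact abs_dist_sub_le _ _ _
  have h7 : |dist q z - dist q x| ≤ |dist q z - dist q z₀| + |dist q x - dist q z₀| := by
    rw [abs_sub_comm (dist q x)]; exact abs_sub_le _ _ _
  have h8 : u * dist x z₀ ≤ 1 / 128 * dist x z₀ := by gcongr
  nlinarith

end Vale.Agent.P210.R2.H401
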