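import Vale.Agent.P210.R2.H401.StepA

open Set Metric
open Vale.Agent.P210.R2.H53 (HCge)

noncomputable section

namespace Vale.Agent.P210.R2.H401

theorem dens0 (hD : Stmt.DENS) (hL : Stmt.LIM) (hC : Stmt.COVER) {n b : ℕ} (hn : 2 ≤ n)
    (hb : 1 ≤ b) (N₀ : ℕ) {ε : ℝ} (hε : 0 < ε) : ∃ N : ℕ, ∀ S, Ax n S →
    ∀ (t₀ ρ : ℝ) (A : Set S.X), 0 < t₀ → S.K * (2 * t₀) ^ 2 ≤ 1 → 0 < ρ →
    ρ ≤ t₀ / 2 ^ (N + b) → (∃ F : Finset S.X, F.card ≤ N₀ ∧ A ⊆ ⋃ c ∈ F, closedBall c t₀) →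
    HCge n ρ A (ε * t₀ ^ (n - 1)) → ∃ k < N, ∃ w ∈ A, HCge n (t₀ / 2 ^ k / 2 ^ b)
    (A ∩ closedBall w (2 * (t₀ / 2 ^ k))) ((t₀ / 2 ^ k) ^ (n - 1) / 2 ^ n) := by
  obtain ⟨D, hD1, hDc⟩ := hC n 4
  obtain ⟨N, -, hN⟩ := hL b 0 0 (N₀ * 2 ^ n) ε hb hε
  refine ⟨N, fun S hA t₀ ρ A ht₀ hK hρ hρN hF hHC => ?_⟩
  obtain ⟨k, hk, -, w, hw, h⟩ := hD S.X n b D N N₀ 0 ρ t₀ ε A ∅ hn hb hD1 ht₀ hρ hρN (by simp)
    (fun k _ w => by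
      have h2 : (0 : ℝ) < 2 ^ k := by positivity
      have h3 : t₀ / 2 ^ k ≤ t₀ := div_le_self ht₀.le (one_le_pow₀ (by norm_num))
      have h4 : 0 < t₀ / 2 ^ k := by positivity
      have h5 : t₀ / 2 ^ (k + 1) = t₀ / 2 ^ k / 2 := by rw [pow_succ]; field_simp
      have hKp := hA.Kpos
      obtain ⟨F, hF1, hF2⟩ := (hDc S hA w (t₀ / 2 ^ (k + 1)) (2 * (t₀ / 2 ^ k)) (by positivity)
        (by rw [h5]; linarith) (by rw [h5]; linarith) (by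
          refine le_trans ?_ hK
          gcongr)).2 (A ∩ closedBall w (2 * (t₀ / 2 ^ k))) inter_subset_right
      exact ⟨F, hF1, hF2⟩) hF hHC (by simpa using hN)
  exact ⟨k, hk, w, hw, h⟩

theorem st_mono {n j b : ℕ} {η : ℝ} {S : Sp} (h : St n j (b + 1) η S) : St n j b η S := by
  obtain ⟨y, t, A, p, h1, h2, h3, h4, h5, h6⟩ := h
  have hb : (2 : ℝ) ^ b ≤ 2 ^ (b + 1) := by gcongr <;> norm_num
  have ht : 0 < t := lt_of_lt_of_le (by positivity) h1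
  refine ⟨y, t, A, p, hb.trans h1, h2, h3, hc_mono h4 ?_ le_rfl le_rfl, h5, h6⟩
  gcongr

theorem exists_two_pow (x : ℝ) : ∃ a : ℕ, x ≤ 2 ^ a := by
  obtain ⟨a, ha⟩ := pow_unbounded_of_one_lt x (one_lt_two)
  exact ⟨a, ha.le⟩

end Vale.Agent.P210.R2.H401
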