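import Vale.Agent.P210.R2.H401.StepB

open Set Metric
open Vale.Agent.P210.R2.H53 (HCge)

noncomputable section

namespace Vale.Agent.P210.R2.H401

theorem ar1 {g τ : ℝ} {b₂ b : ℕ} (hg : 0 < g) (h : 1 / g ≤ 2 ^ b₂) (hb : b₂ ≤ b) (hτ : 0 < τ) :
    τ / 2 ^ b ≤ g * τ := by
  have h1 : 1 ≤ g * 2 ^ b₂ := by rwa [div_le_iff₀' hg] at h
  have h2 : (2 : ℝ) ^ b₂ ≤ 2 ^ b := pow_le_pow_right₀ (by norm_num) hb
  rw [div_le_iff₀ (by positivity)]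
  calc τ = τ * 1 := by ring
    _ ≤ τ * (g * 2 ^ b₂) := by gcongr
    _ ≤ τ * (g * 2 ^ b) := by gcongr
    _ = g * τ * 2 ^ b := by ring

theorem ar2 {τ : ℝ} {M N b₁ b : ℕ} (h : M + N + b₁ ≤ b) (hτ : 0 < τ) :
    2 ^ b₁ * (τ / 2 ^ b) ≤ τ / 2 ^ M / 2 ^ N := by
  have h2 : (2 : ℝ) ^ (M + N + b₁) ≤ 2 ^ b := pow_le_pow_right₀ (by norm_num) h
  rw [div_div, le_div_iff₀ (by positivity), mul_div_assoc', div_mul_eq_mul_div,
    div_le_iff₀ (by positivity)]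
  calc 2 ^ b₁ * τ * (2 ^ M * 2 ^ N) = τ * 2 ^ (M + N + b₁) := by ring
    _ ≤ τ * 2 ^ b := by gcongr

theorem ar3 {τ : ℝ} {M k N : ℕ} (h : k ≤ N) (hτ : 0 < τ) :
    τ / 2 ^ M / 2 ^ N ≤ τ / 2 ^ M / 2 ^ k := by
  have : (2 : ℝ) ^ k ≤ 2 ^ N := pow_le_pow_right₀ (by norm_num) h
  gcongr

theorem one_le_E (b n : ℕ) : 1 ≤ Real.exp 4 * (2 ^ (b + 1)) ^ n :=
  one_le_mul_of_one_le_of_one_le (Real.one_le_exp (by norm_num))
    (one_le_pow₀ (one_le_pow₀ (by norm_num)))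

/-- a new state from a pole for all small balls -/
theorem case_nc {n j b b' : ℕ} {S : Sp} (hA : Ax n S) (hn : 2 ≤ n) {g η η' ηS cS : ℝ}
    (hg : 0 < g) (hη : 0 < η) (hη1 : η ≤ 1 / 16)
    (hηη : η * (Real.exp 4 * (2 ^ (b + 1)) ^ n) ≤ η') (hηS : η ≤ ηS) (hcS : 0 < cS)
    (hslope : ∀ (p y x z : S.X) (r s : ℝ), 0 < r → S.K * r ^ 2 ≤ ηS → PL S ηS p y r →
      dist x y ≤ r → dist z y ≤ r → (1 / 2) ^ b * r ≤ s → s ≤ cS * dist x z →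
      S.GN p x z (4 * s) ((dist p z - dist p x) / dist x z) (η' * S.V z s))
    {y x w z₀ : S.X} {τ t : ℝ} {A' : Set S.X} {p : Fin j → S.X} (hτ : 0 < τ)
    (hK : S.K * (2 * τ) ^ 2 ≤ η) (hPL : ∀ i, PL S η (p i) y (2 * τ))
    (hGN : ∀ i k, i < k → ∃ σ : ℝ, |σ| ≤ 1 / (16 * n) ∧
      S.GN (p i) (p k) y (8 * τ) σ (η * S.V y (2 * τ)))
    (hxy : dist x y ≤ 2 * τ) (hwy : dist w y ≤ 2 * τ) (h1 : τ / 2 ^ b ≤ t) (h2 : t ≤ τ / 64)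
    (hxz : g * τ ≤ dist x z₀) (hwz : dist w z₀ ≤ g / (64 * n) * τ)
    (hxs : ∀ i, |dist (p i) x - dist (p i) z₀| ≤ 1 / (64 * n) * dist x z₀)
    (ht3 : t ≤ τ * (η' * g / 4)) (ht4 : t ≤ τ * (cS * g / 4))
    (hLM : S.LM x w (16 * (2 * t)) (η' * S.V w (2 * t) / (2 * t)))
    (hA' : A' ⊆ closedBall w (2 * t)) (hHC : HCge n (t / 2 ^ b') A' (t ^ (n - 1) / 2 ^ n))
    (hbt : 2 ^ b' ≤ t) : St n (j + 1) b' η' S := by
  have hwx : g * τ / 2 ≤ dist x w := far hn hg hτ hxz hwz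
  have hwx0 : 0 < dist x w := lt_of_lt_of_le (by positivity) hwx
  have hE := one_le_E b n
  have hle : η ≤ η' := le_trans (by
    calc η = η * 1 := by ring
      _ ≤ _ := by gcongr) hηη
  have hη'0 : 0 < η' := by linarith
  have hKp := hA.Kpos
  have ht : 0 < t := lt_of_lt_of_le (by positivity) h1
  refine new_st hA hη (by linarith) hηη hηS hslope hτ hK hPL hGN hxy hwy h1 (by linarith)
    ⟨?_, ?_, hLM⟩ hwx0 ?_ (fun i => slope_small hn hg hτ hxz hwz (hxs i)) hA' hHC hbt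
  · calc 2 * t ≤ η' * (g * τ / 2) := by linarith
      _ ≤ η' * dist x w := by gcongr
  · have hd : dist x w ≤ 4 * τ := by
      have := dist_triangle_right x w y
      linarith
    calc S.K * (2 * t) * dist x w ≤ S.K * (τ / 32) * (4 * τ) := by gcongr; linarith
      _ ≤ S.K * (2 * τ) ^ 2 := by
        have : 0 ≤ S.K * τ ^ 2 := by positivity
        nlinarith
      _ ≤ η := hK
      _ ≤ η' := hle
  · calc 2 * t ≤ cS * (g * τ / 2) := by linarith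
      _ ≤ cS * dist x w := by gcongr

/-- the inner part of the conical case -/
theorem con_inner {n j b₁ N N₀ a : ℕ} {S : Sp} (hA : Ax n S) (hn : 2 ≤ n)
    {g c₂ c₃ cC cS e η' : ℝ} (hg : 0 < g) (hcC : 0 < cC) (hcS : 0 < cS) (hc₃ : 0 < c₃)
    (hc₃4 : c₃ ≤ 1 / 4) (hc₃C : c₃ ≤ cC * g / 4) (hc₃S : c₃ ≤ cS * g / 4)
    (hdens : ∀ (t₀ ρ : ℝ) (A : Set S.X), 0 < t₀ → S.K * (2 * t₀) ^ 2 ≤ 1 → 0 < ρ →
      ρ ≤ t₀ / 2 ^ (N + b₁) →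
      (∃ F : Finset S.X, F.card ≤ N₀ ∧ A ⊆ ⋃ c ∈ F, closedBall c t₀) →
      HCge n ρ A (c₂ / c₃ ^ (n - 1) * t₀ ^ (n - 1)) →
      ∃ k < N, ∃ w ∈ A, HCge n (t₀ / 2 ^ k / 2 ^ b₁)
        (A ∩ closedBall w (2 * (t₀ / 2 ^ k))) ((t₀ / 2 ^ k) ^ (n - 1) / 2 ^ n))
    (ha : 8 * 2 ^ N / c₃ ≤ 2 ^ a)
    (hconi : ∀ (x z : S.X) (T t : ℝ), 0 < T → S.K * T ^ 2 ≤ e →
      S.V x ((1 / 2) ^ a * T) ≤ (1 + e) * ((1 / 2) ^ a) ^ n * S.V x T →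
      dist x z ≤ T / 4 → (1 / 2) ^ a * T ≤ t → t ≤ cC * dist x z → PL S η' x z t)
    {t ρ : ℝ} (ht : 0 < t) (hKt : S.K * (16 * t) ^ 2 ≤ e) (hK1 : S.K * (2 * t) ^ 2 ≤ 1)
    (hρ : 0 < ρ) (hρt : ρ ≤ c₃ * t / 2 ^ (N + b₁)) {A₁ : Set S.X} {w : S.X}
    (hA₁ : A₁ ⊆ closedBall w (2 * t)) (hcov : ∀ A ⊆ A₁, ∃ F : Finset S.X, F.card ≤ N₀ ∧
      A ⊆ ⋃ c ∈ F, closedBall c (c₃ * t))
    (hflat : ∀ z ∈ A₁, S.V z ((1 / 2) ^ a * (16 * t)) ≤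
      (1 + e) * ((1 / 2) ^ a) ^ n * S.V z (16 * t)) {p : Fin j → S.X} {x z₀ : S.X}
    (hxA : x ∈ A₁) (hHC : HCge n ρ (A₁ ∩ closedBall z₀ (g / (64 * n) * t)) (c₂ * t ^ (n - 1)))
    (hxz : g * t ≤ dist x z₀)
    (hxs : ∀ i, |dist (p i) x - dist (p i) z₀| ≤ 1 / (64 * n) * dist x z₀) :
    ∃ w' ∈ A₁, ∃ t' : ℝ, ∃ A' ⊆ closedBall w' (2 * t'), c₃ * t / 2 ^ N ≤ t' ∧ t' ≤ t / 4 ∧
      PL S η' x w' (2 * t') ∧ 0 < dist x w' ∧ 2 * t' ≤ cS * dist x w' ∧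
      (∀ i, |dist (p i) w' - dist (p i) x| ≤ 1 / (16 * n) * dist x w') ∧
      HCge n (t' / 2 ^ b₁) A' (t' ^ (n - 1) / 2 ^ n) := by
  have hKp := hA.Kpos
  obtain ⟨k, hk, w', hw', hHC'⟩ := hdens (c₃ * t) ρ _ (by positivity) (by
      refine le_trans ?_ hK1
      gcongr
      nlinarith) hρ hρt (hcov _ inter_subset_left) (by
      refine hc_mono hHC le_rfl subset_rfl (le_of_eq ?_)
      rw [mul_pow]; field_simp)
  set t' : ℝ := c₃ * t / 2 ^ k with ht'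
  have hct : 0 < c₃ * t := by positivity
  have ht'1 : t' ≤ c₃ * t := div_le_self hct.le (one_le_pow₀ (by norm_num))
  have ht'2 : c₃ * t / 2 ^ N ≤ t' := by
    have : (2 : ℝ) ^ k ≤ 2 ^ N := pow_le_pow_right₀ (by norm_num) hk.le
    rw [ht']; gcongr
  have hd : g * t / 2 ≤ dist x w' := far hn hg ht hxz hw'.2
  have hd0 : 0 < dist x w' := lt_of_lt_of_le (by positivity) hd
  have h4 : dist x w' ≤ 4 * t := by
    have := dist_triangle_right x w' w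
    have h1 := hA₁ hxA
    have h2 := hA₁ hw'.1
    rw [mem_closedBall] at h1 h2
    linarith
  have e1 : ∀ c : ℝ, 0 < c → c₃ ≤ c * g / 4 → 2 * t' ≤ c * dist x w' := by
    intro c hc h
    calc 2 * t' ≤ 2 * (c₃ * t) := by linarith
      _ ≤ 2 * (c * g / 4 * t) := by gcongr
      _ = c * (g * t / 2) := by ring
      _ ≤ _ := by gcongr
  refine ⟨w', hw'.1, t', _, inter_subset_right, ht'2, ?_, ?_, hd0, e1 cS hcS hc₃S, ?_, hHC'⟩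
  · calc t' ≤ c₃ * t := ht'1
      _ ≤ 1 / 4 * t := by gcongr
      _ = t / 4 := by ring
  · refine hconi x w' (16 * t) (2 * t') (by positivity) hKt (hflat x hxA) (by linarith) ?_
      (e1 cC hcC hc₃C)
    rw [one_div, inv_pow, inv_mul_le_iff₀ (by positivity)]
    rw [div_le_iff₀ hc₃] at ha
    rw [div_le_iff₀ (by positivity)] at ht'2
    have hNp : (0 : ℝ) < 2 ^ N := by positivity
    calc 16 * t = 2 * (8 * 2 ^ N) * t / 2 ^ N := by field_simp; norm_num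
      _ ≤ 2 * (2 ^ a * c₃) * t / 2 ^ N := by gcongr
      _ = 2 ^ a * 2 * (c₃ * t) / 2 ^ N := by ring
      _ ≤ 2 ^ a * 2 * (t' * 2 ^ N) / 2 ^ N := by gcongr
      _ = 2 ^ a * (2 * t') := by field_simp
  · exact fun i => slope_small hn hg ht hxz hw'.2 (hxs i)

end Vale.Agent.P210.R2.H401
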