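import Vale.Agent.P210.R2.H401.StepC

open Set Metric
open Vale.Agent.P210.R2.H53 (HCge)

noncomputable section

namespace Vale.Agent.P210.R2.H401

theorem pair' (hC : Stmt.COVER) (hP : Stmt.PAIR) {n j : ℕ} (hn : 2 ≤ n) (hj : j + 2 ≤ n) :
    ∃ g > 0, g ≤ 1 ∧ ∃ c₂ > 0, ∀ S, Ax n S → ∀ (A : Set S.X) (w : S.X) (t ρ : ℝ)
    (p : Fin j → S.X), 0 < t → 0 < ρ → ρ ≤ g * t → S.K * (2 * t) ^ 2 ≤ 1 →
    A ⊆ closedBall w (2 * t) → HCge n ρ A (t ^ (n - 1) / 2 ^ n) →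
    ∃ x ∈ A, ∃ z ∈ A, HCge n ρ (A ∩ closedBall z (g / (64 * n) * t)) (c₂ * t ^ (n - 1)) ∧
      g * t ≤ dist x z ∧ ∀ i, |dist (p i) x - dist (p i) z| ≤ 1 / (64 * n) * dist x z := by
  have hn' : (2 : ℝ) ≤ n := by exact_mod_cast hn
  obtain ⟨g, hg, hg1, hPair⟩ := hP n j hj (1 / 2 ^ n) (by positivity) (1 / (64 * n))
    (by positivity)
  have hg₁0 : 0 < g / (64 * n) := by positivity
  have hg₁1 : g / (64 * n) ≤ 1 := by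
    rw [div_le_iff₀ (by positivity)]; linarith
  obtain ⟨N₁, hN₁, hCov1⟩ := hC n (4 / (g / (64 * n)))
  obtain ⟨c₂, hc₂, hPair⟩ := hPair N₁
  refine ⟨g, hg, hg1, c₂, hc₂, fun S hA A w t ρ p ht hρ hρt hK hAw hHC => ?_⟩
  refine hPair S.X A w t ρ (g / (64 * n)) (fun i q => dist (p i) q) ht hρ hρt hg₁0 hAw
    (by rwa [one_div, inv_mul_eq_div]) ?_ (fun i => LipschitzWith.dist_right (p i))
  refine (hCov1 S hA w (g / (64 * n) * t / 2) (2 * t) (by positivity) ?_ ?_ hK).2 A hAw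
  · calc g / (64 * n) * t / 2 ≤ 1 * t / 2 := by gcongr
      _ ≤ 2 * t := by linarith
  · apply le_of_eq; field_simp; norm_num

/-- the outer part of the conical case -/
theorem con_outer (hC : Stmt.COVER) (hD : Stmt.DENS) (hF : Stmt.FLAT) (hG : Stmt.PIG)
    (hL : Stmt.LIM) {n : ℕ} (hn : 2 ≤ n) (a b₃ m : ℕ) (hb₃ : 1 ≤ b₃) {e L c₂ : ℝ} (he : 0 < e)
    (hL0 : 0 < L) (hc₂ : 0 < c₂) : ∃ N : ℕ, m ≤ N ∧ ∀ S, Ax n S → ∀ (y : S.X) (τ ρ : ℝ)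
    (P : Set S.X), 0 < τ → S.K * (2 * τ) ^ 2 ≤ 1 → 0 < ρ → ρ ≤ τ / 8 / 2 ^ (N + b₃) →
    P ⊆ closedBall y (2 * τ) →
    (∀ z ∈ P, S.V z (2 * τ / 2 ^ (N + a)) ≤
      L * (2 * τ / 2 ^ (N + a) / (2 * τ)) ^ n * S.V z (2 * τ)) →
    HCge n ρ P (c₂ / 3 * τ ^ (n - 1)) →
    ∃ t, τ / 8 / 2 ^ N ≤ t ∧ t ≤ τ / 8 ∧ ∃ w ∈ P, ∃ A ⊆ P, A ⊆ closedBall w (2 * t) ∧
      HCge n (t / 2 ^ b₃) A (t ^ (n - 1) / 2 ^ n) ∧
      ∀ z ∈ A, S.V z ((1 / 2) ^ a * (16 * t)) ≤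
        (1 + e) * ((1 / 2) ^ a) ^ n * S.V z (16 * t) := by
  obtain ⟨K₁, hflat⟩ := hF n a e L he hL0
  obtain ⟨D, hD1, hDc⟩ := hC n 4
  obtain ⟨N₀, -, hCov⟩ := hC n 16
  obtain ⟨N, hNm, hN⟩ := hL b₃ K₁ m (N₀ * 2 ^ n * D ^ K₁) (c₂ / 3 * 8 ^ (n - 1)) hb₃
    (by positivity)
  refine ⟨N, hNm, fun S hA y τ ρ P hτ hK hρ hρτ hP hV hHC => ?_⟩
  have hKp := hA.Kpos
  obtain ⟨B, hBK, hB⟩ := hG S.X n N K₁ ρ _ P (fun z B => ∀ k < N, k ∉ B →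
    S.V z ((1 / 2) ^ a * (2 * τ / 2 ^ k)) ≤
      (1 + e) * ((1 / 2) ^ a) ^ n * S.V z (2 * τ / 2 ^ k)) hρ (by positivity) hHC (by
    intro z hz
    refine hflat S hA z (2 * τ) N (by positivity) hK ?_
    have := hV z hz
    rwa [div_right_comm, div_self (by positivity), ← one_div_pow] at this)
  have hτ8 : 0 < τ / 8 := by positivity
  obtain ⟨k, hk, hkB, w, hw, h⟩ := hD S.X n b₃ D N N₀ K₁ ρ (τ / 8)
    (c₂ / 3 * 8 ^ (n - 1) / ((N : ℝ) + 1) ^ K₁) _ B hn hb₃ hD1 hτ8 hρ hρτ hBK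
    (fun k _ w => by
      have h3 : τ / 8 / 2 ^ k ≤ τ / 8 := div_le_self hτ8.le (one_le_pow₀ (by norm_num))
      have h4 : 0 < τ / 8 / 2 ^ k := by positivity
      have h5 : τ / 8 / 2 ^ (k + 1) = τ / 8 / 2 ^ k / 2 := by rw [pow_succ]; field_simp
      obtain ⟨F, hF1, hF2⟩ := (hDc S hA w (τ / 8 / 2 ^ (k + 1)) (2 * (τ / 8 / 2 ^ k))
        (by positivity) (by rw [h5]; linarith) (by rw [h5]; linarith) (by
          refine le_trans ?_ hK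
          gcongr
          linarith)).2 _ inter_subset_right
      exact ⟨F, hF1, hF2⟩)
    ((hCov S hA y (τ / 8) (2 * τ) hτ8 (by linarith) (by linarith) hK).2 _
      fun z hz => hP hz.1)
    (hc_mono hB le_rfl subset_rfl (le_of_eq (by rw [div_pow]; field_simp))) hN
  refine ⟨τ / 8 / 2 ^ k, ?_, ?_, w, hw.1, _, inter_subset_left.trans (sep_subset _ _),
    inter_subset_right, h, ?_⟩
  · have : (2 : ℝ) ^ k ≤ 2 ^ N := pow_le_pow_right₀ (by norm_num) hk.le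
    gcongr
  · exact div_le_self hτ8.le (one_le_pow₀ (by norm_num))
  · intro z hz
    have := hz.1.2 k hk hkB
    rwa [show 16 * (τ / 8 / 2 ^ k) = 2 * τ / 2 ^ k by ring]

end Vale.Agent.P210.R2.H401
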