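import Vale.Agent.P210.R2.H401.StepD

open Set Metric
open Vale.Agent.P210.R2.H53 (HCge)

noncomputable section

namespace Vale.Agent.P210.R2.H401

/-- the outer part of the case of a pole for all small balls -/
theorem nc_outer (hC : Stmt.COVER) (hD : Stmt.DENS) (hL : Stmt.LIM) {n b₁ : ℕ} (hn : 2 ≤ n)
    (hb₁ : 1 ≤ b₁) (M : ℕ) {c₂ : ℝ} (hc₂ : 0 < c₂) : ∃ N : ℕ, ∀ S, Ax n S →
    ∀ (y : S.X) (τ ρ : ℝ) (P : Set S.X), 0 < τ → S.K * (2 * τ) ^ 2 ≤ 1 → 0 < ρ →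
    2 ^ b₁ * ρ ≤ τ / 2 ^ M / 2 ^ N → P ⊆ closedBall y (2 * τ) →
    HCge n ρ P (c₂ / 3 * τ ^ (n - 1)) →
    ∃ t, τ / 2 ^ M / 2 ^ N ≤ t ∧ t ≤ τ / 2 ^ M ∧ ∃ w ∈ P, ∃ A ⊆ closedBall w (2 * t),
      HCge n (t / 2 ^ b₁) A (t ^ (n - 1) / 2 ^ n) := by
  obtain ⟨N₀, -, hCov⟩ := hC n (2 * 2 ^ M)
  obtain ⟨N, hdens⟩ := dens0 hD hL hC hn hb₁ N₀
    (ε := c₂ / 3 * (2 ^ M) ^ (n - 1)) (by positivity)
  refine ⟨N, fun S hA y τ ρ P hτ hK hρ hρτ hP hHC => ?_⟩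
  have hKp := hA.Kpos
  have hτM : 0 < τ / 2 ^ M := by positivity
  have hτM1 : τ / 2 ^ M ≤ τ := div_le_self hτ.le (one_le_pow₀ (by norm_num))
  obtain ⟨k, hk, w, hw, h⟩ := hdens S hA (τ / 2 ^ M) ρ P hτM (by
      refine le_trans ?_ hK; gcongr) hρ (by
      rw [pow_add, ← div_div, le_div_iff₀ (by positivity)]; linarith)
    ((hCov S hA y (τ / 2 ^ M) (2 * τ) hτM (by linarith) (by
      apply le_of_eq; field_simp) hK).2 P hP)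
    (hc_mono hHC le_rfl subset_rfl (le_of_eq (by rw [div_pow]; field_simp)))
  refine ⟨τ / 2 ^ M / 2 ^ k, ar3 hk.le hτ, div_le_self hτM.le (one_le_pow₀ (by norm_num)), w, hw,
    _, inter_subset_right, h⟩

theorem ar4 {c₃ τ t : ℝ} {N' N b₁ b₂ b : ℕ} (hc₃ : 0 < c₃)
    (h : 2 ^ (N' + b₁) / c₃ ≤ 2 ^ b₂) (hb : 3 + N + (b₂ + 1) ≤ b) (hτ : 0 < τ)
    (ht : τ / 8 / 2 ^ N ≤ t) : 2 ^ b₁ * (τ / 2 ^ b) ≤ c₃ * t / 2 ^ N' := by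
  rw [div_le_iff₀ hc₃, pow_add] at h
  have h2 : (2 : ℝ) ^ (3 + N + b₂) ≤ 2 ^ b := pow_le_pow_right₀ (by norm_num) (by omega)
  calc 2 ^ b₁ * (τ / 2 ^ b) ≤ 2 ^ b₁ * (τ / 2 ^ (3 + N + b₂)) := by gcongr
    _ = (2 ^ N' * 2 ^ b₁) * (τ / 8 / 2 ^ N) / 2 ^ b₂ / 2 ^ N' := by
      rw [pow_add, pow_add]; field_simp; norm_num
    _ ≤ (2 ^ b₂ * c₃) * t / 2 ^ b₂ / 2 ^ N' := by gcongr
    _ = c₃ * t / 2 ^ N' := by field_simp

theorem ar5 {c₃ t : ℝ} {N' b₁ b₂ : ℕ} (hc₃ : 0 < c₃)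
    (h : 2 ^ (N' + b₁) / c₃ ≤ 2 ^ b₂) (ht : 0 < t) :
    t / 2 ^ (b₂ + 1) ≤ c₃ * t / 2 ^ (N' + b₁) := by
  rw [div_le_iff₀ hc₃] at h
  rw [div_le_div_iff₀ (by positivity) (by positivity)]
  have h2 : (2 : ℝ) ^ b₂ ≤ 2 ^ (b₂ + 1) := pow_le_pow_right₀ (by norm_num) (by omega)
  calc t * 2 ^ (N' + b₁) ≤ t * (2 ^ b₂ * c₃) := by gcongr
    _ ≤ t * (2 ^ (b₂ + 1) * c₃) := by gcongr
    _ = _ := by ring

theorem step (hC : Stmt.COVER) (hD : Stmt.DENS) (hP : Stmt.PAIR) (hB : Stmt.BAD)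
    (hF : Stmt.FLAT) (hG : Stmt.PIG) (hL : Stmt.LIM) : Stmt.STEP := by
  intro n C hn I j hj ⟨b₀, η', hη', hno0⟩
  have hno1 : ∀ S, C S → ¬ St n (j + 1) (b₀ + 1) η' S := fun S hS h => hno0 S hS (st_mono h)
  generalize hb₁ : b₀ + 1 = b₁ at hno1
  have hb₁1 : 1 ≤ b₁ := by omega
  clear hno0 hb₁
  obtain ⟨g, hg, hg1, c₂, hc₂, hPair⟩ := pair' hC hP hn hj
  obtain ⟨cC, hcC, hconi⟩ := I.coni η' hη'
  obtain ⟨cS, hcS, hslope⟩ := I.slope η' hη'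
  obtain ⟨c₃, hc₃, hc₃4, hc₃C, hc₃S⟩ : ∃ c₃ > 0, c₃ ≤ 1 / 4 ∧ c₃ ≤ cC * g / 4 ∧
      c₃ ≤ cS * g / 4 :=
    ⟨min (1 / 4) (min (cC * g / 4) (cS * g / 4)), by positivity, min_le_left _ _,
      (min_le_right _ _).trans (min_le_left _ _), (min_le_right _ _).trans (min_le_right _ _)⟩
  obtain ⟨N₀', -, hCov2⟩ := hC n (2 / c₃)
  obtain ⟨N', hdens'⟩ := dens0 hD hL hC hn hb₁1 N₀'
    (ε := c₂ / c₃ ^ (n - 1)) (by positivity)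
  obtain ⟨a, ha⟩ := exists_two_pow (8 * 2 ^ N' / c₃)
  obtain ⟨e, he, hconi⟩ := hconi ((1 / 2) ^ a) (by positivity)
  obtain ⟨L, hL0, hbad⟩ := hB n C hn I (g / 8) (by positivity) (by linarith) η' hη'
    (c₂ / (3 * 2 ^ (n - 1))) (by positivity)
  obtain ⟨b₂, hb₂⟩ := exists_two_pow (max (2 ^ (N' + b₁) / c₃) (1 / g))
  have hb₂c : 2 ^ (N' + b₁) / c₃ ≤ 2 ^ b₂ := (le_max_left _ _).trans hb₂
  have hb₂g : 1 / g ≤ 2 ^ b₂ := (le_max_right _ _).trans hb₂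
  obtain ⟨m, hm⟩ := exists_pow_lt_of_lt_one
    (show 0 < min (g / 8 / 16) (min (η' * g / 4) (cS * g / 4)) by positivity)
    (show (1 / 2 : ℝ) < 1 by norm_num)
  obtain ⟨N, hNm, houter⟩ := con_outer hC hD hF hG hL hn a (b₂ + 1) m (by omega) he hL0 hc₂
  have hMm : ((1 : ℝ) / 2) ^ (N + a) ≤ (1 / 2) ^ m :=
    pow_le_pow_of_le_one (by norm_num) (by norm_num) (by omega)
  have hM1 : ((1 : ℝ) / 2) ^ (N + a) ≤ g / 8 / 16 := hMm.trans (hm.le.trans (min_le_left _ _))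
  have hM2 : ((1 : ℝ) / 2) ^ (N + a) ≤ η' * g / 4 :=
    hMm.trans ((hm.le.trans (min_le_right _ _)).trans (min_le_left _ _))
  have hM3 : ((1 : ℝ) / 2) ^ (N + a) ≤ cS * g / 4 :=
    hMm.trans ((hm.le.trans (min_le_right _ _)).trans (min_le_right _ _))
  clear hm hMm
  generalize hMdef : N + a = M at hM1 hM2 hM3 houter
  obtain ⟨N'', hnc⟩ := nc_outer hC hD hL hn hb₁1 M hc₂
  obtain ⟨b, hbN, hbM⟩ : ∃ b : ℕ, 3 + N + (b₂ + 1) ≤ b ∧ M + N'' + b₁ ≤ b :=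
    ⟨3 + N + (b₂ + 1) + (M + N'' + b₁), by omega, by omega⟩
  obtain ⟨ηS, hηS, hslope⟩ := hslope ((1 / 2) ^ b) (by positivity)
  obtain ⟨η, hη, hη1, hηe, hηS', hηη⟩ : ∃ η > 0, η ≤ 1 / 16 ∧ η ≤ e ∧ η ≤ ηS ∧
      η * (Real.exp 4 * (2 ^ (b + 1)) ^ n) ≤ η' :=
    ⟨min (1 / 16) (min e (min ηS (η' / (Real.exp 4 * (2 ^ (b + 1)) ^ n)))), by positivity,
      min_le_left _ _, (min_le_right _ _).trans (min_le_left _ _),
      ((min_le_right _ _).trans (min_le_right _ _)).trans (min_le_left _ _), by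
      rw [← le_div_iff₀ (by positivity)]
      exact ((min_le_right _ _).trans (min_le_right _ _)).trans (min_le_right _ _)⟩
  refine ⟨b, η, hη, fun S hS => ?_⟩
  rintro ⟨y, τ, A, p, hbτ, hK, hA, hHC, hPL, hGN⟩
  apply hno1 S hS
  have hAx := I.ax S hS
  replace hPair := hPair S hAx
  replace hslope := hslope S hS
  replace hconi := hconi S hS
  replace houter := houter S hAx
  replace hbad := hbad S hS
  replace hnc := hnc S hAx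
  replace hdens' := hdens' S hAx
  replace hCov2 := hCov2 S hAx
  clear hno1 hS I hC hD hP hB hF hG hL
  have hKp := hAx.Kpos
  have hτ : 0 < τ := lt_of_lt_of_le (by positivity) hbτ
  have hK1 : S.K * (2 * τ) ^ 2 ≤ 1 := by linarith
  have hρ : 0 < τ / 2 ^ b := by positivity
  have hρ1 : 1 ≤ τ / 2 ^ b := by rwa [one_le_div (by positivity)]
  obtain ⟨x, hxA, z₀, hz₀A, hP0, hxz₀, hxz₀s⟩ := hPair A y τ (τ / 2 ^ b) p hτ hρ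
    (ar1 hg hb₂g (by omega) hτ) hK1 hA hHC
  have hyx : dist x y ≤ 2 * τ := hA hxA
  have hρ₁ : 2 ^ b₁ * (τ / 2 ^ b) ≤ τ / 2 ^ M / 2 ^ N'' := ar2 hbM hτ
  have hb₁2 : (1 : ℝ) ≤ 2 ^ b₁ := one_le_pow₀ (by norm_num)
  have hρ₁' : τ / 2 ^ b ≤ τ / 2 ^ M / 2 ^ N'' := by
    refine le_trans ?_ hρ₁
    calc τ / 2 ^ b = 1 * (τ / 2 ^ b) := by ring
      _ ≤ _ := by gcongr
  have hρ₁₂ : τ / 2 ^ M / 2 ^ N'' ≤ τ / 2 ^ M :=
    div_le_self (by positivity) (one_le_pow₀ (by norm_num))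
  have hτM : τ / 2 ^ M = τ * (1 / 2) ^ M := by rw [one_div, inv_pow]; rfl
  let Pb : Set S.X := {z ∈ A ∩ closedBall z₀ (g / (64 * n) * τ) |
    L * (2 * τ / 2 ^ M / (2 * τ)) ^ n * S.V z (2 * τ) < S.V z (2 * τ / 2 ^ M) ∧
    ∃ t, 2 * (τ / 2 ^ M / 2 ^ N'') ≤ t ∧ t ≤ 2 * τ / 2 ^ M ∧
      ¬ S.LM x z (16 * t) (η' * S.V z t / t)}
  let Pn : Set S.X := {z ∈ A ∩ closedBall z₀ (g / (64 * n) * τ) |
    ∀ t, 2 * (τ / 2 ^ M / 2 ^ N'') ≤ t → t ≤ 2 * τ / 2 ^ M →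
      S.LM x z (16 * t) (η' * S.V z t / t)}
  let Pc : Set S.X := {z ∈ A ∩ closedBall z₀ (g / (64 * n) * τ) |
    S.V z (2 * τ / 2 ^ M) ≤ L * (2 * τ / 2 ^ M / (2 * τ)) ^ n * S.V z (2 * τ)}
  have hPcov : A ∩ closedBall z₀ (g / (64 * n) * τ) ⊆ Pb ∪ (Pn ∪ Pc) := by
    intro z hz
    by_cases h1 : S.V z (2 * τ / 2 ^ M) ≤ L * (2 * τ / 2 ^ M / (2 * τ)) ^ n * S.V z (2 * τ)
    · exact Or.inr (Or.inr ⟨hz, h1⟩)
    by_cases h2 : ∀ t, 2 * (τ / 2 ^ M / 2 ^ N'') ≤ t → t ≤ 2 * τ / 2 ^ M →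
      S.LM x z (16 * t) (η' * S.V z t / t)
    · exact Or.inr (Or.inl ⟨hz, h2⟩)
    push Not at h1 h2
    exact Or.inl ⟨hz, h1, h2⟩
  rcases hc_union hρ (a := c₂ / 3 * τ ^ (n - 1))
    (b := c₂ / 3 * τ ^ (n - 1) + c₂ / 3 * τ ^ (n - 1)) (hc_mono hP0 le_rfl subset_rfl
      (le_of_eq (by ring))) hPcov with hcase | hcase
  · -- bad
    exfalso
    refine hbad x y (2 * τ) (τ / 2 ^ b) (2 * (τ / 2 ^ M / 2 ^ N'')) (2 * τ / 2 ^ M) Pb hρ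
      (by linarith) ?_ ?_ hK1 hyx ?_ (hc_mono hcase le_rfl subset_rfl (le_of_eq ?_))
    · rw [mul_div_assoc]; linarith
    · rw [mul_div_assoc, hτM]
      calc 16 * (2 * (τ * (1 / 2) ^ M)) ≤ 16 * (2 * (τ * (g / 8 / 16))) := by gcongr
        _ = _ := by ring
    · rintro z ⟨hz, h1, h2⟩
      refine ⟨hA hz.1, ?_, h1, h2⟩
      have := far hn hg hτ hxz₀ hz.2
      linarith
    · rw [mul_pow]; field_simp
  rcases hc_union hρ hcase subset_rfl with hcase | hcase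
  · -- noncon
    obtain ⟨t, ht1, ht2, w, hw, A', hA', hHC'⟩ := hnc y τ (τ / 2 ^ b) Pn hτ hK1 hρ hρ₁
      (fun z hz => hA hz.1.1) hcase
    refine case_nc hAx hn hg hη hη1 hηη hηS' hcS hslope hτ hK hPL hGN hyx (hA hw.1.1)
      (hρ₁'.trans ht1) (ht2.trans ?_) hxz₀ hw.1.2 hxz₀s (ht2.trans ?_) (ht2.trans ?_)
      (hw.2 (2 * t) (by linarith) (by rw [mul_div_assoc]; linarith)) hA' hHC'
      ((le_trans ?_ hρ₁).trans ht1)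
    · rw [hτM]
      calc τ * (1 / 2) ^ M ≤ τ * (g / 8 / 16) := by gcongr
        _ ≤ τ * (1 / 8 / 16) := by gcongr
        _ ≤ τ / 64 := by linarith
    · rw [hτM]; gcongr
    · rw [hτM]; gcongr
    · calc (2 : ℝ) ^ b₁ = 2 ^ b₁ * 1 := by ring
        _ ≤ _ := by gcongr
  · -- con
    obtain ⟨t, ht1, ht2, w, hw, A₁, hA₁, hA₁w, hHC₁, hfl⟩ := houter y τ (τ / 2 ^ b) Pc hτ hK1
      hρ (by
        rw [div_div, show (8 : ℝ) = 2 ^ 3 by norm_num, ← pow_add]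
        have : (2 : ℝ) ^ (3 + (N + (b₂ + 1))) ≤ 2 ^ b :=
          pow_le_pow_right₀ (by norm_num) (by omega)
        gcongr) (fun z hz => hA hz.1.1) (fun z hz => hz.2) hcase
    have ht : 0 < t := lt_of_lt_of_le (by positivity) ht1
    have hKt : S.K * (16 * t) ^ 2 ≤ η := by
      refine le_trans ?_ hK
      have : 16 * t ≤ 2 * τ := by linarith
      gcongr
    have hKt1 : S.K * (2 * t) ^ 2 ≤ 1 := by
      refine le_trans ?_ hK1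
      have : t ≤ τ := by linarith
      gcongr
    obtain ⟨x', hx', z', hz', hP1, hxz', hxs'⟩ := hPair A₁ w t (t / 2 ^ (b₂ + 1)) p ht
      (by positivity) (ar1 hg hb₂g (by omega) ht) hKt1 hA₁w hHC₁
    obtain ⟨w', hw', t', A', hA', ht'1, ht'2, hpl, hd0, hcS', hsl, hHC'⟩ :=
      con_inner hAx hn hg hcC hcS hc₃ hc₃4 hc₃C hc₃S hdens' ha hconi ht (hKt.trans hηe) hKt1
        (by positivity) (ar5 hc₃ hb₂c ht) hA₁w (fun A hAA => (hCov2 w (c₃ * t) (2 * t)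
          (by positivity) (by nlinarith) (le_of_eq (by field_simp)) hKt1).2 A
          (hAA.trans hA₁w)) hfl hx' hP1 hxz' hxs'
    have hfin : 2 ^ b₁ * (τ / 2 ^ b) ≤ t' := (ar4 hc₃ hb₂c hbN hτ ht1).trans ht'1
    refine new_st hAx hη (by linarith) hηη hηS' hslope hτ hK hPL hGN (hA (hA₁ hx').1.1)
      (hA (hA₁ hw').1.1) (le_trans ?_ hfin) (by linarith) hpl hd0 hcS' hsl hA' hHC'
      (le_trans ?_ hfin)
    · calc τ / 2 ^ b = 1 * (τ / 2 ^ b) := by ring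
        _ ≤ _ := by gcongr
    · calc (2 : ℝ) ^ b₁ = 2 ^ b₁ * 1 := by ring
        _ ≤ _ := by gcongr

end Vale.Agent.P210.R2.H401
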