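import Vale.Agent.P210.R2.H401.CSpec
import Mathlib.MeasureTheory.Covering.Vitali

open Set Metric

noncomputable section

namespace Vale.Agent.P210.R2.H401

theorem vit : Stmt.VIT := by
  intro X _ P t R h
  let B : X → Set (X × X) := fun a => {q | (q.1 = a ∨ q.2 = a) ∧
    (q.1 = q.2 ∨ dist q.1 q.2 < 16 * t q.1 + 16 * t q.2)}
  obtain ⟨u, hu, hd, hc⟩ := Vitali.exists_disjoint_subfamily_covering_enlargement B P t 2
    (by norm_num) (fun a ha => (h a ha).1.le) R (fun a ha => (h a ha).2)
    (fun a _ => ⟨(a, a), Or.inl rfl, Or.inl rfl⟩)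
  refine ⟨u, hu, ?_, ?_⟩
  · intro z hz z' hz' hne
    by_contra hlt
    push Not at hlt
    exact Set.disjoint_left.1 (hd hz hz' hne) (show (z, z') ∈ B z from ⟨Or.inl rfl, Or.inr hlt⟩)
      (show (z, z') ∈ B z' from ⟨Or.inr rfl, Or.inr hlt⟩)
  · intro a ha
    obtain ⟨b, hb, ⟨q, ⟨hq1, hq⟩, hq2, -⟩, hle⟩ := hc a ha
    refine ⟨b, hb, ?_⟩
    have hb0 := (h b (hu hb)).1
    by_cases hab : a = b
    · subst hab; simpa using hb0.le
    have key : dist a b < 16 * t a + 16 * t b := by
      rcases hq with hq | hq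
      · exfalso
        rcases hq1 with h1 | h1 <;> rcases hq2 with h2 | h2
        · exact hab (h1.symm.trans h2)
        · exact hab (h1.symm.trans (hq.trans h2))
        · exact hab (h1.symm.trans (hq.symm.trans h2))
        · exact hab (h1.symm.trans h2)
      · rcases hq1 with h1 | h1 <;> rcases hq2 with h2 | h2
        · exact absurd (h1.symm.trans h2) hab
        · rwa [h1, h2] at hq
        · rw [h1, h2, dist_comm] at hq; linarith
        · exact absurd (h1.symm.trans h2) hab
    linarith

end Vale.Agent.P210.R2.H401
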